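import Vale.Agent.P192.R2.H577.Tw

set_option linter.all false

namespace Vale.Agent.P192.R2.H577

open SimpleGraph Vale.Agent.P192 Vale.Agent.P192.H437

universe u v w

/-- quadratic growth, uniform form -/
theorem growth_uniform (G : Type v) [Group G] [Group.IsFinitelyPresented G] (hG : IsMulTorsion G)
    (S : Set G) (hS : Subgroup.closure S = ⊤) :
    ∃ c : ℝ, 0 < c ∧ ∀ n b : ℕ, (b : ℝ) < c * (n : ℝ) ^ 2 →
      ∃ N : Subgroup G, N.Normal ∧ N.FiniteIndex ∧
      ∀ (X : Type u) [MulAction G X], (∀ x : X, {y | hop S n x y}.encard ≤ b) →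
        ∀ g ∈ N, ∀ x : X, g • x = x := by
  obtain ⟨M0, σ, hσS, hσ, -⟩ := exists_tuple G S hS
  obtain ⟨c, hc, h⟩ := grid_uniform.{u, v} G hG (Set.range σ) (Set.finite_range σ) hσ
  refine ⟨c ^ 2, by positivity, fun n b hb => ?_⟩
  obtain ⟨N, h1, h2, h3⟩ := h n
  refine ⟨N, h1, h2, ?_⟩
  intro X _ hX g hg x
  refine h3 X ?_ g hg x
  intro m hm
  have h4 := grid_card hc.le hm
    ((Set.encard_le_encard fun y hy => hop_mono hσS hy).trans (hX m))
  rw [mul_pow] at h4
  linarith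

theorem num_poly (r m k : ℕ) (hk : 1 ≤ k) :
    ((k * k) ^ (4 * r + 8) + 2) ^ (m * (k * k) ^ (4 * r + 8)) + (4 * r + 8) * k ≤
      (k + 2) ^ ((k + 2) ^ ((8 * r + 16) * m + (4 * r + 9) + 1 + (8 * r + 16))) := by
  set e := 8 * r + 16 with he
  set K := (k * k) ^ (4 * r + 8) with hK
  have hKe : K = k ^ e := by
    rw [hK, mul_pow, ← pow_add]; congr 1; omega
  have h1 : K + 2 ≤ (k + 2) ^ e := by
    obtain ⟨e', he'⟩ : ∃ e', e = e' + 1 := ⟨e - 1, by omega⟩
    rw [hKe, he', pow_succ, pow_succ]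
    have h2 : k ^ e' ≤ (k + 2) ^ e' := Nat.pow_le_pow_left (by omega) _
    have h3 : 1 ≤ (k + 2) ^ e' := Nat.one_le_pow _ _ (by omega)
    calc k ^ e' * k + 2 ≤ (k + 2) ^ e' * k + (k + 2) ^ e' * 2 :=
          add_le_add (Nat.mul_le_mul_right _ h2) (by omega)
      _ = (k + 2) ^ e' * (k + 2) := by ring
  have h2 : K ≤ (k + 2) ^ e := by omega
  set a := e * m * (k + 2) ^ e with ha
  set b := 4 * r + 9 with hb
  have h3 : (K + 2) ^ (m * K) ≤ (k + 2) ^ a := by
    calc (K + 2) ^ (m * K) ≤ ((k + 2) ^ e) ^ (m * K) := Nat.pow_le_pow_left h1 _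
      _ = (k + 2) ^ (e * (m * K)) := by rw [← pow_mul]
      _ ≤ (k + 2) ^ a := by
        apply Nat.pow_le_pow_right (by omega)
        rw [ha, mul_assoc]
        exact Nat.mul_le_mul_left _ (Nat.mul_le_mul_left _ h2)
  have h4 : (4 * r + 8) * k ≤ (k + 2) ^ b := by
    have h5 : 4 * r + 8 ≤ (k + 2) ^ (4 * r + 8) :=
      Nat.lt_two_pow_self.le.trans (Nat.pow_le_pow_left (by omega) _)
    rw [hb, show 4 * r + 9 = 4 * r + 8 + 1 by omega, pow_succ]
    exact Nat.mul_le_mul h5 (by omega)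
  have h5 : (k + 2) ^ a + (k + 2) ^ b ≤ (k + 2) ^ (a + b + 1) := by
    have e1 : (k + 2) ^ a ≤ (k + 2) ^ (a + b) := Nat.pow_le_pow_right (by omega) (by omega)
    have e2 : (k + 2) ^ b ≤ (k + 2) ^ (a + b) := Nat.pow_le_pow_right (by omega) (by omega)
    calc (k + 2) ^ a + (k + 2) ^ b ≤ (k + 2) ^ (a + b) * 2 := by omega
      _ ≤ (k + 2) ^ (a + b) * (k + 2) := Nat.mul_le_mul_left _ (by omega)
      _ = (k + 2) ^ (a + b + 1) := by rw [← pow_succ]
  have h6 : a + b + 1 ≤ (k + 2) ^ (e * m + b + 1 + e) := by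
    have e1 : 1 ≤ (k + 2) ^ e := Nat.one_le_pow _ _ (by omega)
    have e2 : e * m + b + 1 ≤ (k + 2) ^ (e * m + b + 1) :=
      Nat.lt_two_pow_self.le.trans (Nat.pow_le_pow_left (by omega) _)
    calc a + b + 1 ≤ (e * m + b + 1) * (k + 2) ^ e := by
          rw [ha]; nlinarith
      _ ≤ (k + 2) ^ (e * m + b + 1) * (k + 2) ^ e := Nat.mul_le_mul_right _ e2
      _ = _ := by rw [← pow_add]
  calc (K + 2) ^ (m * K) + (4 * r + 8) * k ≤ (k + 2) ^ a + (k + 2) ^ b := add_le_add h3 h4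
    _ ≤ (k + 2) ^ (a + b + 1) := h5
    _ ≤ _ := Nat.pow_le_pow_right (by omega) h6

theorem hop_trans {G : Type v} [Group G] {X : Type u} [MulAction G X] {S : Set G} {m n : ℕ}
    {x y z : X} (h1 : hop S m x y) (h2 : hop S n y z) : hop S (m + n) x z := by
  obtain ⟨w1, a1, a2, rfl⟩ := h1
  obtain ⟨w2, b1, b2, rfl⟩ := h2
  refine ⟨w2 ++ w1, ?_, ?_, ?_⟩
  · intro s hs
    rcases List.mem_append.1 hs with h | h
    · exact b1 s h
    · exact a1 s h
  · rw [List.length_append]; omega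
  · rw [List.prod_append, mul_smul]

theorem hop_split {G : Type v} [Group G] {X : Type u} [MulAction G X] {S : Set G} {m n : ℕ}
    {x z : X} (h : hop S (m + n) x z) : ∃ y, hop S m x y ∧ hop S n y z := by
  obtain ⟨w, h1, h2, rfl⟩ := h
  refine ⟨(w.drop n).prod • x, ⟨w.drop n, fun s hs => h1 s (List.mem_of_mem_drop hs), ?_, rfl⟩,
    ⟨w.take n, fun s hs => h1 s (List.mem_of_mem_take hs), ?_, ?_⟩⟩
  · rw [List.length_drop]; omega
  · rw [List.length_take]; omega
  · rw [← mul_smul, ← List.prod_append, List.take_append_drop]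

theorem ball_iter {G : Type v} [Group G] {X : Type u} [MulAction G X] {S : Set G} {x : X}
    {n k b : ℕ} (hb : ∀ y, hop S n x y → {z | hop S k y z}.encard ≤ b) :
    ∀ j n' : ℕ, n' + j * k ≤ n → ∀ y, hop S n' x y →
      {z | hop S (j * k) y z}.encard ≤ ((b ^ j : ℕ) : ℕ∞) := by
  intro j
  induction j with
  | zero =>
    intro n' _ y _
    have : {z | hop S (0 * k) y z} ⊆ {y} := by
      rintro z ⟨w, -, h2, rfl⟩
      have : w = [] := List.length_eq_zero_iff.1 (by omega)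
      subst this
      simp
    refine (Set.encard_le_encard this).trans ?_
    rw [Set.encard_singleton]; simp
  | succ j ih =>
    intro n' hn' y hy
    have e : (j + 1) * k = j * k + k := by ring
    rw [e] at hn' ⊢
    have h1 : {z | hop S (j * k + k) y z} ⊆ ⋃ p ∈ {p | hop S (j * k) y p}, {z | hop S k p z} := by
      intro z hz
      obtain ⟨p, hp1, hp2⟩ := hop_split hz
      exact Set.mem_biUnion hp1 hp2
    refine (Set.encard_le_encard h1).trans ?_
    rw [pow_succ]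
    apply H630.biUnion_le _ _ _ _ (ih n' (by omega) y hy)
    intro p hp
    exact hb p (hop_le (by omega) (hop_trans hy hp))

/-- quadratic growth, local form -/
theorem growth_local (G : Type v) [Group G] [Group.IsFinitelyPresented G] (hG : IsMulTorsion G)
    (S : Set G) (hS : Subgroup.closure S = ⊤) :
    ∃ c : ℝ, 0 < c ∧ ∃ C : ℕ, ∀ (X : Type u) [MulAction G X] [MulAction.IsPretransitive G X]
      (x : X) (n k : ℕ), (k + 2) ^ ((k + 2) ^ C) ≤ n → (∃ y, ¬ hop S n x y) →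
      ∃ y, hop S n x y ∧ ∀ b : ℕ, {z | hop S k y z}.encard ≤ b → c * (k : ℝ) ^ 2 ≤ b := by
  obtain ⟨M0, σ, hσS, hσ, -⟩ := exists_tuple G S hS
  set S' := Set.range σ with hS'
  obtain ⟨R, hR⟩ := boundary_linked.{u, v} G hG S' (Set.finite_range σ) hσ
  obtain ⟨r, m, hm⟩ := local_core.{u, v} G hG S' hσ
  have hSS : (S' ∪ {s | s⁻¹ ∈ S'}).Finite := by
    refine (Set.finite_range σ).union ?_
    have : {s | s⁻¹ ∈ S'} = (fun s : G => s⁻¹) '' S' := by
      ext s
      constructor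
      · intro h; exact ⟨s⁻¹, h, inv_inv s⟩
      · rintro ⟨t, ht, rfl⟩; show (t⁻¹)⁻¹ ∈ S'; rw [inv_inv]; exact ht
    rw [this]
    exact (Set.finite_range σ).image _
  set d := (S' ∪ {s | s⁻¹ ∈ S'}).ncard with hd
  have hd' : (S' ∪ {s | s⁻¹ ∈ S'}).encard ≤ d := by rw [hd, hSS.cast_ncard_eq]
  set c0 : ℝ := 1 / (100 * (R + 1) * (d + 1)) with hc0
  have hc0pos : 0 < c0 := by positivity
  have hc01 : c0 ≤ 1 := by
    rw [hc0, div_le_one (by positivity)]
    have e1 : (0 : ℝ) ≤ R := Nat.cast_nonneg _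
    have e2 : (0 : ℝ) ≤ d := Nat.cast_nonneg _
    nlinarith [mul_nonneg e1 e2]
  refine ⟨c0 ^ 2, by positivity, (8 * r + 16) * m + (4 * r + 9) + 1 + (8 * r + 16), ?_⟩
  intro X _ _ x n k hn hne
  by_contra hcon
  push Not at hcon
  have hx0 : ∀ n, hop S' n x x := fun n => ⟨[], by simp, by simp, by simp⟩
  have hk : 1 ≤ k := by
    by_contra hk
    have hk0 : k = 0 := by omega
    obtain ⟨b, -, hb⟩ := hcon x (hop_mono hσS (hx0 n))
    rw [hk0] at hb
    have e1 : (0 : ℝ) ≤ b := Nat.cast_nonneg _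
    simp at hb
    linarith
  have : Nonempty X := ⟨x⟩
  have hc := sch_connected (S := S') (X := X) hσ
  -- all the balls of radius `k` in the ball of radius `n` around `x` are small
  have hball : ∀ y, hop S' n x y → {z | hop S' k y z}.encard ≤ ((k * k : ℕ) : ℕ∞) := by
    intro y hy
    obtain ⟨b, hb1, hb2⟩ := hcon y (hop_mono hσS hy)
    refine (Set.encard_le_encard fun z hz => hop_mono hσS hz).trans (hb1.trans ?_)
    have h1 : (b : ℝ) ≤ k * k := by
      have e1 : c0 ^ 2 ≤ 1 := by nlinarith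
      have e2 : (0 : ℝ) ≤ (k : ℝ) ^ 2 := by positivity
      nlinarith
    exact_mod_cast h1
  have hnum := num_poly r m k hk
  have hn' : n - (4 * r + 8) * k + (4 * r + 8) * k = n := by omega
  have h1 := hm X x (n - (4 * r + 8) * k) k ((k * k) ^ (4 * r + 8)) (by
    intro m' y hm' _ hgeo hx hy hcn
    have hm'' : hop S' n x m' := hop_le (by omega) hm'
    have hgr := grid_of hd' hc (CB_of hc (hR X)) hgeo hx hy hcn
    obtain ⟨b, hb1, hb2⟩ := hcon m' (hop_mono hσS hm'')
    have h4 := grid_card hc0pos.le hgr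
      ((Set.encard_le_encard fun y hy => hop_mono hσS hy).trans hb1)
    rw [mul_pow] at h4
    linarith) (by
    intro y hy
    refine le_trans (Set.encard_le_encard ?_)
      (ball_iter hball (4 * r + 8) (n - (4 * r + 8) * k) (by omega) y hy)
    intro z hz
    refine hop_le ?_ hz
    have : (4 * r + 8) * k = 4 * (r * k) + 8 * k := by ring
    have h2 : r ≤ r * k := Nat.le_mul_of_pos_right _ hk
    omega) (by
    obtain ⟨y, hy⟩ := hne
    exact ⟨y, fun h => hy (hop_mono hσS (hop_le (by omega) h))⟩)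
  omega

/-- annular cuts -/
theorem cuts_uniform (G : Type v) [Group G] [Group.IsFinitelyPresented G] (hG : IsMulTorsion G)
    (S : Set G) (hSf : S.Finite) (hS : Subgroup.closure S = ⊤) :
    ∃ c : ℝ, 0 < c ∧ ∀ n k : ℕ, (k : ℝ) ≤ c * n → ∃ N : Subgroup G, N.Normal ∧ N.FiniteIndex ∧
      ∀ (X : Type u) [MulAction G X],
        (∀ (m : X) (C : Set X), (∀ x ∈ C, ∀ y ∈ C, linked S 1 C x y) → (∀ x ∈ C, ¬ hop S n m x) →
          ∃ A : Set X, C ⊆ A ∧ (∀ a ∈ A, ¬ hop S (n / 2) m a) ∧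
            {x | x ∈ A ∧ ∃ s ∈ S, s • x ∉ A ∨ s⁻¹ • x ∉ A}.encard ≤ k) →
        ∀ g ∈ N, ∀ x : X, g • x = x := by
  obtain ⟨R, hR⟩ := boundary_linked.{u, v} G hG S hSf hS
  obtain ⟨r, m, hm⟩ := local_core.{u, v} G hG S hS
  have hSS : (S ∪ {s | s⁻¹ ∈ S}).Finite := by
    refine hSf.union ?_
    have : {s | s⁻¹ ∈ S} = (fun s : G => s⁻¹) '' S := by
      ext s
      constructor
      · intro h; exact ⟨s⁻¹, h, inv_inv s⟩
      · rintro ⟨t, ht, rfl⟩; show (t⁻¹)⁻¹ ∈ S; rw [inv_inv]; exact ht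
    rw [this]
    exact hSf.image _
  set d := (S ∪ {s | s⁻¹ ∈ S}).ncard with hd
  have hd' : (S ∪ {s | s⁻¹ ∈ S}).encard ≤ d := by rw [hd, hSS.cast_ncard_eq]
  refine ⟨1 / (R + 1), by positivity, fun n k hk => ?_⟩
  have hRk : R * k ≤ n := by
    rw [div_mul_eq_mul_div, one_mul, le_div_iff₀ (by positivity)] at hk
    have h1 : k * (R + 1) ≤ n := by exact_mod_cast hk
    rw [Nat.mul_succ, mul_comm] at h1
    omega
  set K := (d + 1) ^ (4 * r + 4 * n + 4) with hK
  set n' := (K + 2) ^ (m * K) with hn'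
  obtain ⟨N, h1, h2, h3⟩ := exists_kernel.{u, v} G ((d + 1) ^ n')
  refine ⟨N, h1, h2, ?_⟩
  intro X _ hX g hg x
  refine h3 X x ?_ g hg
  let x' : MulAction.orbit G x := ⟨x, MulAction.mem_orbit_self x⟩
  have : Nonempty (MulAction.orbit G x) := ⟨x'⟩
  have hc := sch_connected (S := S) (X := MulAction.orbit G x) hS
  have hall : ∀ y : MulAction.orbit G x, hop S n' x' y := by
    by_contra hcon
    push Not at hcon
    have h4 := hm (MulAction.orbit G x) x' n' n K (by
      intro m' y _ _ hgeo hx hy hcn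
      set C : Set (MulAction.orbit G x) :=
        {z | cn (sch S (MulAction.orbit G x)) {p | n < (sch S (MulAction.orbit G x)).dist m' p} x' z}
        with hC
      have hx' : n < (sch S (MulAction.orbit G x)).dist m' x' := by
        rw [SimpleGraph.dist_comm]; exact hx
      obtain ⟨A, hA1, hA2, hA3⟩ := hX m'.1 (Subtype.val '' C) (by
        rintro _ ⟨a, ha, rfl⟩ _ ⟨b, hb, rfl⟩
        exact linked_val (linked_cn ((cn_symm (cn_self ha)).trans (cn_self hb)))) (by
        rintro _ ⟨a, ha, rfl⟩ ⟨w, w1, w2, w3⟩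
        have h5 : n < (sch S (MulAction.orbit G x)).dist m' a := by
          have ha' : cn (sch S (MulAction.orbit G x))
            {p | n < (sch S (MulAction.orbit G x)).dist m' p} x' a := ha
          have h6 : a ∈ {p | n < (sch S (MulAction.orbit G x)).dist m' p} := cn_mem ha' hx'
          exact h6
        have h6 : hop S n m' a := ⟨w, w1, w2, Subtype.ext w3⟩
        rw [hop_iff hc] at h6
        omega)
      have hCA : ∀ a ∈ C, a ∈ (Subtype.val ⁻¹' A : Set (MulAction.orbit G x)) :=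
        fun a ha => hA1 ⟨a, ha, rfl⟩
      refine bottleneck hc (CB_of hc (hR _)) hRk (Subtype.val ⁻¹' A)
        (hCA _ Relation.ReflTransGen.refl) (cn_mono hCA (cn_self hcn)) ?_ ?_ hgeo.le
      · intro a ha
        by_contra hcon
        push Not at hcon
        refine hA2 a.1 ha (hop_val ?_)
        rw [hop_iff hc]
        omega
      · rw [bd_sch, ← Subtype.val_injective.encard_image]
        refine (Set.encard_le_encard ?_).trans hA3
        rintro _ ⟨a, ⟨ha, s, hs, h⟩, rfl⟩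
        exact ⟨ha, s, hs, h⟩) (by
      intro y _
      exact ball_card hd' y _) hcon
    omega
  refine le_trans (Set.encard_le_encard ?_) (ball_card hd' x n')
  intro y hy
  exact hop_val (hall ⟨y, hy⟩)

end Vale.Agent.P192.R2.H577
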