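import Vale.Agent.P192.R2.H577.Geo
import Vale.Agent.P192.H437.Grp
import Vale.Agent.P192.H437.ColourG

set_option linter.all false

namespace Vale.Agent.P192.R2.H577

open SimpleGraph Vale.Agent.P192 Vale.Agent.P192.H437

universe u v

section

variable {G : Type v} [Group G] (S : Set G) (X : Type u) [MulAction G X]

/-- the Schreier graph -/
def sch : SimpleGraph X where
  Adj x y := x ≠ y ∧ ∃ s : G, (s ∈ S ∨ s⁻¹ ∈ S) ∧ s • x = y
  symm := ⟨by
    rintro x y ⟨h, s, hs, rfl⟩
    refine ⟨h.symm, s⁻¹, ?_, inv_smul_smul s x⟩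
    rw [inv_inv]
    exact hs.symm⟩
  loopless := ⟨fun x h => h.1 rfl⟩

variable {S X}

theorem walk_of_hop {n : ℕ} {x y : X} (h : hop S n x y) : ∃ p : (sch S X).Walk x y, p.length ≤ n := by
  obtain ⟨w, hw, hn, rfl⟩ := h
  have key : ∀ w : List G, (∀ s ∈ w, s ∈ S ∨ s⁻¹ ∈ S) →
      ∃ p : (sch S X).Walk x (w.prod • x), p.length ≤ w.length := by
    intro w hw
    induction w with
    | nil => exact ⟨(Walk.nil : (sch S X).Walk x x).copy rfl (by simp), by rw [Walk.length_copy]; rfl⟩
    | cons s w ih =>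
      obtain ⟨p, hp⟩ := ih fun t ht => hw t (by simp [ht])
      rw [List.prod_cons, mul_smul, List.length_cons]
      by_cases h : w.prod • x = s • w.prod • x
      · exact ⟨p.copy rfl h, by rw [Walk.length_copy]; omega⟩
      · have hadj : (sch S X).Adj (w.prod • x) (s • w.prod • x) := ⟨h, s, hw s (by simp), rfl⟩
        exact ⟨p.concat hadj, by rw [Walk.length_concat]; omega⟩
  obtain ⟨p, hp⟩ := key w hw
  exact ⟨p, hp.trans hn⟩

theorem hop_of_walk {x y : X} (p : (sch S X).Walk x y) : hop S p.length x y := by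
  induction p with
  | nil => exact ⟨[], by simp, by simp, by simp⟩
  | @cons a b c h q ih =>
    obtain ⟨w, h1, h2, h3⟩ := ih
    obtain ⟨s, hs, hb⟩ := h.2
    refine ⟨w ++ [s], ?_, ?_, ?_⟩
    · intro t ht
      rcases List.mem_append.1 ht with h | h
      · exact h1 t h
      · rw [List.mem_singleton] at h
        rw [h]; exact hs
    · rw [List.length_append, Walk.length_cons, List.length_singleton]; omega
    · rw [List.prod_append, List.prod_singleton, mul_smul, hb, h3]

theorem hop_le {m n : ℕ} (h : m ≤ n) {x y : X} (hxy : hop S m x y) : hop S n x y := by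
  obtain ⟨w, h1, h2, h3⟩ := hxy
  exact ⟨w, h1, h2.trans h, h3⟩

theorem sch_connected [MulAction.IsPretransitive G X] [Nonempty X]
    (hS : Subgroup.closure S = ⊤) : (sch S X).Connected := by
  refine (connected_iff _).2 ⟨fun x y => ?_, inferInstance⟩
  obtain ⟨g, hg⟩ := MulAction.exists_smul_eq G x y
  obtain ⟨w, hw, rfl⟩ := exists_list S hS g
  obtain ⟨p, -⟩ := walk_of_hop (S := S) (n := w.length) (x := x) (y := y) ⟨w, hw, le_rfl, hg⟩
  exact ⟨p⟩

theorem hop_iff (hc : (sch S X).Connected) {n : ℕ} {x y : X} :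
    hop S n x y ↔ (sch S X).dist x y ≤ n := by
  constructor
  · intro h
    obtain ⟨p, hp⟩ := walk_of_hop h
    exact (dist_le p).trans hp
  · intro h
    obtain ⟨p, hp⟩ := hc.exists_walk_length_eq_dist x y
    exact hop_le (by omega) (hop_of_walk p)

theorem bd_sch (C : Set X) : bd (sch S X) C = {x | x ∈ C ∧ ∃ s ∈ S, s • x ∉ C ∨ s⁻¹ • x ∉ C} := by
  ext x
  constructor
  · rintro ⟨hx, y, ⟨-, s, hs, rfl⟩, hy⟩
    refine ⟨hx, ?_⟩
    rcases hs with hs | hs
    · exact ⟨s, hs, Or.inl hy⟩
    · exact ⟨s⁻¹, hs, Or.inr (by rw [inv_inv]; exact hy)⟩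
  · rintro ⟨hx, s, hs, h | h⟩
    · exact ⟨hx, _, ⟨fun e => h (by rw [← e]; exact hx), s, Or.inl hs, rfl⟩, h⟩
    · exact ⟨hx, _, ⟨fun e => h (by rw [← e]; exact hx), s⁻¹, Or.inr (by rw [inv_inv]; exact hs),
        rfl⟩, h⟩

theorem linked_cn {C : Set X} {x y : X} (h : cn (sch S X) C x y) : linked S 1 C x y := by
  induction h with
  | refl => exact Relation.ReflTransGen.refl
  | @tail a b _ hst ih =>
    obtain ⟨h1, h2, -, s, hs, h3⟩ := hst
    exact ih.tail ⟨h1, h2, [s], by simpa using hs, by simp, by simpa using h3⟩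

theorem cn_linked {C : Set X} {x y : X} (h : linked S 1 C x y) : cn (sch S X) C x y := by
  induction h with
  | refl => exact Relation.ReflTransGen.refl
  | @tail a b _ hst ih =>
    obtain ⟨h1, h2, w, hw, hw1, h3⟩ := hst
    by_cases hab : a = b
    · rwa [← hab]
    · refine ih.tail ⟨h1, h2, hab, ?_⟩
      rcases w with _ | ⟨s, w⟩
      · exact absurd (by simpa using h3) hab
      · rw [List.length_cons] at hw1
        have : w = [] := List.length_eq_zero_iff.1 (by omega)
        subst this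
        exact ⟨s, hw s (by simp), by simpa using h3⟩

theorem CB_of {R : ℕ} (hc : (sch S X).Connected)
    (h : ∀ C : Set X, (∀ x ∈ C, ∀ y ∈ C, linked S 1 C x y) →
      (∀ x ∉ C, ∀ y ∉ C, linked S 1 Cᶜ x y) →
      ∀ x ∈ bdry S C, ∀ y ∈ bdry S C, linked S R (bdry S C) x y) : CB (sch S X) R := by
  intro C h1 h2 x hx y hy
  have hb : bd (sch S X) C = bdry S C := bd_sch C
  rw [hb] at hx hy ⊢
  have h3 := h C (fun x hx y hy => linked_cn (h1 x hx y hy))
    (fun x hx y hy => linked_cn (h2 x hx y hy)) x hx y hy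
  exact Relation.ReflTransGen.mono (fun a b hab => ⟨hab.1, hab.2.1, (hop_iff hc).1 hab.2.2⟩) _ _ h3

end

/-- the local form: bottlenecks and small balls up to distance `n` force `n` to be small -/
theorem local_core (G : Type v) [Group G] [Group.IsFinitelyPresented G] (hG : IsMulTorsion G)
    (S : Set G) (hS : Subgroup.closure S = ⊤) :
    ∃ r m : ℕ, ∀ (X : Type u) [MulAction G X] [MulAction.IsPretransitive G X] (x : X) (n k K : ℕ),
      (∀ m' y : X, hop S n x m' → hop S n x y →
        (sch S X).dist x m' + (sch S X).dist m' y = (sch S X).dist x y →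
        k < (sch S X).dist x m' → k < (sch S X).dist m' y →
        ¬ cn (sch S X) {p | k < (sch S X).dist m' p} x y) →
      (∀ y, hop S n x y → {z | hop S (4 * r + 4 * k + 4) y z}.encard ≤ K) →
      (∃ y, ¬ hop S n x y) → n < (K + 2) ^ (m * K) := by
  obtain ⟨r, m, h⟩ := colour.{u, v} G hG S hS
  refine ⟨r, m, ?_⟩
  intro X _ _ x n k K hbn hK hn
  have : Nonempty X := ⟨x⟩
  have hc := sch_connected (X := X) hS
  refine h X {p | Even ((sch S X).dist x p / (r + 1))} x n K ?_ hn
  intro y hy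
  refine le_trans (Set.encard_le_encard ?_) (hK y hy)
  intro z hz
  show hop S (4 * r + 4 * k + 4) y z
  rw [hop_iff hc]
  apply annuli hc x r k
  · exact Relation.ReflTransGen.mono (fun a b hab => ⟨hab.1, (hop_iff hc).1 hab.2⟩) _ _ hz
  · intro m' hm' h1 h2
    refine hbn m' y ?_ hy hm' h1 h2
    rw [hop_iff hc] at hy ⊢
    omega

end Vale.Agent.P192.R2.H577
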