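import Vale.Agent.P192.R2.H577.Wb

set_option linter.all false

namespace Vale.Agent.P192.R2.H577

open SimpleGraph Vale.Agent.P192 Vale.Agent.P192.H437 Filter

universe u v w

/-- local form: pseudo-grids, treewidth and growth -/
theorem all_local (G : Type v) [Group G] [Group.IsFinitelyPresented G] (hG : IsMulTorsion G)
    (S : Set G) (hSf : S.Finite) (hS : Subgroup.closure S = ⊤) :
    ∃ c : ℝ, 0 < c ∧ ∃ C : ℕ, ∀ (X : Type u) [MulAction G X] [MulAction.IsPretransitive G X]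
      (x : X) (n k : ℕ), 2 ^ (2 ^ (C * (k + 1))) ≤ n → (∃ y, ¬ hop S n x y) →
      ∃ y, hop S n x y ∧ grid S c k y ∧
        (∀ j : ℕ, narrow (fun x y => ∃ s ∈ S, s • x = y) {z | hop S k y z} j → c * k < j) ∧
        ∀ b : ℕ, {z | hop S k y z}.encard ≤ b → c * (k : ℝ) ^ 2 ≤ b := by
  obtain ⟨c, hc, C, h⟩ := grid_local.{u, v} G hG S hSf hS
  have hSS : (S ∪ {s | s⁻¹ ∈ S}).Finite := by
    refine hSf.union ?_
    have : {s | s⁻¹ ∈ S} = (fun s : G => s⁻¹) '' S := by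
      ext s
      constructor
      · intro h; exact ⟨s⁻¹, h, inv_inv s⟩
      · rintro ⟨t, ht, rfl⟩; show (t⁻¹)⁻¹ ∈ S; rw [inv_inv]; exact ht
    rw [this]
    exact hSf.image _
  set d := (S ∪ {s | s⁻¹ ∈ S}).ncard with hd
  have hd' : (S ∪ {s | s⁻¹ ∈ S}).encard ≤ d := by rw [hd, hSS.cast_ncard_eq]
  refine ⟨min (c / 3) (c ^ 2), by positivity, C, ?_⟩
  intro X _ _ x n k hn hne
  obtain ⟨y, hy, hgr⟩ := h X x n k hn hne
  have hk0 : (0 : ℝ) ≤ k := Nat.cast_nonneg _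
  have hm1 : min (c / 3) (c ^ 2) * k ≤ c / 3 * k := mul_le_mul_of_nonneg_right (min_le_left _ _) hk0
  have hm2 : min (c / 3) (c ^ 2) * (k : ℝ) ^ 2 ≤ c ^ 2 * (k : ℝ) ^ 2 :=
    mul_le_mul_of_nonneg_right (min_le_right _ _) (by positivity)
  have hm3 : min (c / 3) (c ^ 2) * k ≤ c * k := by
    refine hm1.trans ?_
    have : 0 ≤ c * k := by positivity
    linarith
  refine ⟨y, hy, ?_, ?_, ?_⟩
  · obtain ⟨J, D, h1, h2, h3, h4, h5⟩ := hgr
    exact ⟨J, D, hm3.trans h1, h2, h3, h4, fun i Z hi hZ => h5 i Z (hi.trans hm3) hZ⟩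
  · intro j hj
    by_contra hcon
    push Not at hcon
    have hj1 : 1 ≤ j := by
      obtain ⟨V, T, B, -, h5, h6, -⟩ := hj
      obtain ⟨t⟩ := (h6 y ⟨[], by simp, by simp, by simp⟩).nonempty
      have h7 : (1 : ℕ∞) ≤ (B t.1).encard := Set.one_le_encard_iff_nonempty.2 ⟨y, t.2⟩
      exact_mod_cast h7.trans (h5 t.1)
    have hj2 : (1 : ℝ) ≤ j := by exact_mod_cast hj1
    refine grid_tw (Set.finite_of_encard_le_coe (ball_card hd' y k)) hgr hj ?_
    have h8 : 3 * (j : ℝ) ≤ c * k := by linarith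
    linarith
  · intro b hb
    have h4 := grid_card hc.le hgr hb
    rw [mul_pow] at h4
    linarith

end Vale.Agent.P192.R2.H577
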