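import Vale.Agent.P192.H437.Defs
import Mathlib.Combinatorics.SimpleGraph.Acyclic
import Mathlib.Data.Set.Card
import Mathlib.Data.Real.Basic

namespace Vale.Agent.P192.R2.H577

universe u v

open Vale.Agent.P192.H437

/-- `grid S c n m`: there are at least `c * n` pairwise disjoint connected sets (rows) in the
`n`-ball around `m` in the Schreier graph with respect to `S` such that for every set `Z` of at most
`c * n` points some connected set in the `n`-ball around `m` (a column) avoids `Z` and meets all the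
rows. -/
def grid {G : Type v} {X : Type u} [Group G] [MulAction G X] (S : Set G) (c : ℝ) (n : ℕ) (m : X) :
    Prop :=
  ∃ (J : ℕ) (D : Fin J → Set X), c * n ≤ J ∧ (∀ i j, i ≠ j → Disjoint (D i) (D j)) ∧
    (∀ i, ∀ a ∈ D i, hop S n m a) ∧ (∀ i, ∀ a ∈ D i, ∀ b ∈ D i, linked S 1 (D i) a b) ∧
    ∀ (k : ℕ) (Z : Set X), (k : ℝ) ≤ c * n → Z.encard ≤ k →
      ∃ Q : Set X, (∀ a ∈ Q, hop S n m a ∧ a ∉ Z) ∧ (∀ a ∈ Q, ∀ b ∈ Q, linked S 1 Q a b) ∧
        ∀ i, (D i ∩ Q).Nonempty

/-- `narrow r A k`: the set `A` with the edges given by `r` has a tree decomposition all of whose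
bags have at most `k` points. -/
def narrow {X : Type u} (r : X → X → Prop) (A : Set X) (k : ℕ) : Prop :=
  ∃ (V : Type) (T : SimpleGraph V) (B : V → Set X), T.IsTree ∧ (∀ t, (B t).encard ≤ k) ∧
    (∀ x ∈ A, (T.induce {t | x ∈ B t}).Connected) ∧
    ∀ x ∈ A, ∀ y ∈ A, r x y → ∃ t, x ∈ B t ∧ y ∈ B t

end Vale.Agent.P192.R2.H577
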