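import Vale.Agent.P192.H437.Colour
import Mathlib.Combinatorics.SimpleGraph.Metric
import Mathlib.Data.Set.Card

set_option linter.all false

namespace Vale.Agent.P192.R2.H577

open SimpleGraph

universe u

variable {X : Type u} (Γ : SimpleGraph X)

def cn (A : Set X) : X → X → Prop :=
  Relation.ReflTransGen fun a b => a ∈ A ∧ b ∈ A ∧ Γ.Adj a b

def bd (A : Set X) : Set X := {a | a ∈ A ∧ ∃ b, Γ.Adj a b ∧ b ∉ A}

def lnk (R : ℕ) (B : Set X) : X → X → Prop :=
  Relation.ReflTransGen fun a b => a ∈ B ∧ b ∈ B ∧ Γ.dist a b ≤ R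

def CB (R : ℕ) : Prop :=
  ∀ C : Set X, (∀ x ∈ C, ∀ y ∈ C, cn Γ C x y) → (∀ x ∉ C, ∀ y ∉ C, cn Γ Cᶜ x y) →
    ∀ x ∈ bd Γ C, ∀ y ∈ bd Γ C, lnk Γ R (bd Γ C) x y

variable {Γ}

theorem cn_symm {A : Set X} {x y : X} (h : cn Γ A x y) : cn Γ A y x := by
  induction h with
  | refl => exact Relation.ReflTransGen.refl
  | tail _ hst ih => exact Relation.ReflTransGen.head ⟨hst.2.1, hst.1, hst.2.2.symm⟩ ih

theorem cn_mono {A B : Set X} (h : A ⊆ B) {x y : X} (hc : cn Γ A x y) : cn Γ B x y :=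
  Relation.ReflTransGen.mono (fun _ _ hab => ⟨h hab.1, h hab.2.1, hab.2.2⟩) _ _ hc

theorem cn_mem {A : Set X} {x y : X} (h : cn Γ A x y) (hx : x ∈ A) : y ∈ A := by
  induction h with
  | refl => exact hx
  | tail _ hst _ => exact hst.2.1

theorem nxt (hΓ : Γ.Connected) {x m : X} (h : x ≠ m) :
    ∃ b, Γ.Adj x b ∧ Γ.dist b m + 1 = Γ.dist x m := by
  obtain ⟨p, hp⟩ := hΓ.exists_walk_length_eq_dist x m
  cases p with
  | nil => exact absurd rfl h
  | @cons _ b _ hadj q =>
    refine ⟨b, hadj, ?_⟩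
    rw [Walk.length_cons] at hp
    have h1 : Γ.dist b m ≤ q.length := dist_le q
    have h2 : Γ.dist x m ≤ Γ.dist x b + Γ.dist b m := hΓ.dist_triangle
    have h3 : Γ.dist x b = 1 := dist_eq_one_iff_adj.2 hadj
    omega

theorem exit (hΓ : Γ.Connected) (A : Set X) (m : X) (hm : m ∉ A) :
    ∀ n : ℕ, ∀ x, Γ.dist x m = n → x ∈ A → ∃ a ∈ bd Γ A, Γ.dist x a + Γ.dist a m ≤ Γ.dist x m := by
  intro n
  induction n with
  | zero =>
    intro x hx hxA
    have : x = m := by
      rcases hΓ.dist_eq_zero_iff.1 hx with h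
      exact h
    rw [this] at hxA
    exact absurd hxA hm
  | succ n ih =>
    intro x hx hxA
    have hne : x ≠ m := fun h => hm (h ▸ hxA)
    obtain ⟨b, hb, hb'⟩ := nxt hΓ hne
    by_cases hbA : b ∈ A
    · obtain ⟨a, ha, ha'⟩ := ih b (by omega) hbA
      refine ⟨a, ha, ?_⟩
      have h2 : Γ.dist x a ≤ Γ.dist x b + Γ.dist b a := hΓ.dist_triangle
      have h3 : Γ.dist x b = 1 := dist_eq_one_iff_adj.2 hb
      omega
    · refine ⟨x, ⟨hxA, b, hb, hbA⟩, ?_⟩
      rw [SimpleGraph.dist_self]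
      omega

theorem point (hΓ : Γ.Connected) (x y : X) (j : ℕ) (hj : j ≤ Γ.dist x y) :
    ∃ m, Γ.dist x m = j ∧ Γ.dist m y + j = Γ.dist x y := by
  induction j with
  | zero => exact ⟨x, SimpleGraph.dist_self, by omega⟩
  | succ j ih =>
    obtain ⟨m, h1, h2⟩ := ih (by omega)
    have hne : m ≠ y := by
      rintro rfl
      omega
    obtain ⟨b, hb, hb'⟩ := nxt hΓ hne
    have h3 : Γ.dist m b = 1 := dist_eq_one_iff_adj.2 hb
    have h4 : Γ.dist x b ≤ Γ.dist x m + Γ.dist m b := hΓ.dist_triangle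
    have h5 : Γ.dist x y ≤ Γ.dist x b + Γ.dist b y := hΓ.dist_triangle
    exact ⟨b, by omega, by omega⟩

theorem cn_geo (hΓ : Γ.Connected) (A : Set X) (b : X) :
    ∀ n : ℕ, ∀ a, Γ.dist a b = n → (∀ p, Γ.dist a p + Γ.dist p b ≤ Γ.dist a b → p ∈ A) →
      cn Γ A a b := by
  intro n
  induction n with
  | zero =>
    intro a ha _
    have : a = b := hΓ.dist_eq_zero_iff.1 ha
    rw [this]
    exact Relation.ReflTransGen.refl
  | succ n ih =>
    intro a ha hA
    have hne : a ≠ b := by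
      rintro rfl
      rw [SimpleGraph.dist_self] at ha
      omega
    obtain ⟨c, hc, hc'⟩ := nxt hΓ hne
    have h3 : Γ.dist a c = 1 := dist_eq_one_iff_adj.2 hc
    refine Relation.ReflTransGen.head ⟨hA a ?_, hA c ?_, hc⟩ (ih c (by omega) ?_)
    · rw [SimpleGraph.dist_self]; omega
    · omega
    · intro p hp
      apply hA
      have h4 : Γ.dist a p ≤ Γ.dist a c + Γ.dist c p := hΓ.dist_triangle
      omega

theorem cn_self {W : Set X} {x z : X} (h : cn Γ W x z) : cn Γ {z | cn Γ W x z} x z := by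
  induction h with
  | refl => exact Relation.ReflTransGen.refl
  | @tail b c hb hst ih =>
    exact ih.tail ⟨hb, Relation.ReflTransGen.tail hb hst, hst.2.2⟩

theorem hexcut (hΓ : Γ.Connected) (A : Set X) (x m : X) (hx : x ∈ A) (hm : m ∉ A) :
    ∃ E : Set X, m ∉ E ∧ (∀ y, cn Γ A x y → y ∈ E) ∧ (∀ a ∈ E, ∀ b ∈ E, cn Γ E a b) ∧
      (∀ a ∉ E, ∀ b ∉ E, cn Γ Eᶜ a b) ∧ bd Γ E ⊆ bd Γ A := by
  classical
  set A₁ : Set X := {z | cn Γ A x z} with hA₁
  have hA₁A : A₁ ⊆ A := fun z hz => cn_mem hz hx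
  set F : Set X := {z | cn Γ A₁ᶜ m z} with hF
  have hmA₁ : m ∈ A₁ᶜ := fun h => hm (hA₁A h)
  have hFA : F ⊆ A₁ᶜ := fun z hz => cn_mem hz hmA₁
  have hFF : ∀ z, cn Γ A₁ᶜ m z → cn Γ F m z := fun z hz => cn_self hz
  have hA1A1 : ∀ z, cn Γ A x z → cn Γ A₁ x z := fun z hz => cn_self hz
  have hA₁E : A₁ ⊆ Fᶜ := fun z hz h => hFA h hz
  -- every point outside `F` is joined to `x`
  have hconn : ∀ a ∉ F, cn Γ Fᶜ a x := by
    intro a ha
    obtain ⟨p⟩ := hΓ.preconnected a x
    induction p with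
    | nil => exact Relation.ReflTransGen.refl
    | @cons a b x hadj q ih =>
      by_cases hb : b ∈ F
      · have haA₁ : a ∈ A₁ := by
          by_contra h
          exact ha (Relation.ReflTransGen.tail hb ⟨hFA hb, h, hadj.symm⟩)
        exact cn_mono hA₁E (cn_symm (hA1A1 a haA₁))
      · exact Relation.ReflTransGen.head ⟨ha, hb, hadj⟩
          (ih hx hA₁ hA₁A hF hmA₁ hFA hFF hA1A1 hA₁E hb)
  refine ⟨Fᶜ, fun h => h Relation.ReflTransGen.refl, fun y hxy => hA₁E hxy, ?_, ?_, ?_⟩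
  · intro a ha b hb
    exact (hconn a ha).trans (cn_symm (hconn b hb))
  · intro a ha b hb
    rw [Set.notMem_compl_iff] at ha hb
    rw [compl_compl]
    exact (cn_symm (hFF a ha)).trans (hFF b hb)
  · rintro a ⟨ha, b, hab, hb⟩
    rw [Set.notMem_compl_iff] at hb
    have haA₁ : a ∈ A₁ := by
      by_contra h
      exact ha (Relation.ReflTransGen.tail hb ⟨hFA hb, h, hab.symm⟩)
    refine ⟨hA₁A haA₁, b, hab, fun hbA => hFA hb ?_⟩
    exact Relation.ReflTransGen.tail haA₁ ⟨hA₁A haA₁, hbA, hab⟩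

theorem lnk_dist (hΓ : Γ.Connected) {R K : ℕ} {B : Set X} (hB : B.encard ≤ K) {x y : X}
    (hx : x ∈ B) (h : lnk Γ R B x y) : Γ.dist x y ≤ R * K := by
  set rel : X → X → Prop := fun a b => a ∈ B ∧ b ∈ B ∧ Γ.dist a b ≤ R with hrel
  have h1 : {z | Relation.ReflTransGen rel x z} ⊆ B := by
    intro z hz
    have hz' : Relation.ReflTransGen rel x z := hz
    induction hz' with
    | refl => exact hx
    | tail _ hst _ => exact hst.2.1
  have h2 := H437.reach_lev rel x K ((Set.encard_le_encard h1).trans hB)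
  have h3 : ∀ n, ∀ z ∈ H437.lev rel x n, Γ.dist x z ≤ R * n := by
    intro n
    induction n with
    | zero =>
      intro z hz
      have : z = x := hz
      rw [this, SimpleGraph.dist_self]
      exact Nat.zero_le _
    | succ n ih =>
      rintro z (hz | ⟨w, hw, hwz⟩)
      · exact (ih z hz).trans (Nat.mul_le_mul_left _ (Nat.le_succ n))
      · have h4 : Γ.dist x z ≤ Γ.dist x w + Γ.dist w z := hΓ.dist_triangle
        have h5 := ih w hw
        have h6 := hwz.2.2
        rw [Nat.mul_succ]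
        omega
  exact h3 K y (h2 h)

/-- bottlenecks -/
theorem bottleneck (hΓ : Γ.Connected) {R : ℕ} (hCB : CB Γ R) {n K : ℕ} (hK : R * K ≤ n)
    {x m y : X} (A : Set X) (hxA : x ∈ A) (hxy : cn Γ A x y) (hA : ∀ a ∈ A, n < 2 * Γ.dist m a)
    (hAK : (bd Γ A).encard ≤ K) (hgeo : Γ.dist x m + Γ.dist m y ≤ Γ.dist x y) : False := by
  have hm : m ∉ A := by
    intro h
    have := hA m h
    rw [SimpleGraph.dist_self] at this
    omega
  obtain ⟨E, hmE, hE, h1, h2, h3⟩ := hexcut hΓ A x m hxA hm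
  have hxE := hE x Relation.ReflTransGen.refl
  have hyE := hE y hxy
  obtain ⟨a, ha, ha'⟩ := exit hΓ E m hmE _ x rfl hxE
  obtain ⟨b, hb, hb'⟩ := exit hΓ E m hmE _ y rfl hyE
  have h4 := lnk_dist hΓ ((Set.encard_le_encard h3).trans hAK) ha (hCB E h1 h2 a ha b hb)
  have h5 := hA a (h3 ha).1
  have h6 := hA b (h3 hb).1
  have h7 : Γ.dist x y ≤ Γ.dist x a + Γ.dist a y := hΓ.dist_triangle
  have h8 : Γ.dist a y ≤ Γ.dist a b + Γ.dist b y := hΓ.dist_triangle
  have e1 : Γ.dist m a = Γ.dist a m := SimpleGraph.dist_comm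
  have e2 : Γ.dist m b = Γ.dist b m := SimpleGraph.dist_comm
  have e3 : Γ.dist m y = Γ.dist y m := SimpleGraph.dist_comm
  have e4 : Γ.dist b y = Γ.dist y b := SimpleGraph.dist_comm
  omega

theorem div_close {a b L : ℕ} (hL : 0 < L) (h1 : a < b + L) (h2 : b < a + L)
    (h3 : Even (a / L) ↔ Even (b / L)) : a / L = b / L := by
  have ha := Nat.div_add_mod a L
  have hb := Nat.div_add_mod b L
  have ha1 := Nat.mod_lt a hL
  have hb1 := Nat.mod_lt b hL
  have h4 : a / L ≤ b / L + 1 := by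
    by_contra h
    push Not at h
    have h5 : L * (b / L + 1 + 1) ≤ L * (a / L) := Nat.mul_le_mul_left _ h
    have h6 : L * (b / L + 1 + 1) = L * (b / L) + L + L := by ring
    omega
  have h5 : b / L ≤ a / L + 1 := by
    by_contra h
    push Not at h
    have h5 : L * (a / L + 1 + 1) ≤ L * (b / L) := Nat.mul_le_mul_left _ h
    have h6 : L * (a / L + 1 + 1) = L * (a / L) + L + L := by ring
    omega
  rcases Nat.lt_trichotomy (a / L) (b / L) with h | h | h
  · exfalso
    have h6 : b / L = a / L + 1 := by omega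
    rw [h6, Nat.even_add_one] at h3
    tauto
  · exact h
  · exfalso
    have h6 : a / L = b / L + 1 := by omega
    rw [h6, Nat.even_add_one] at h3
    tauto

/-- components of annuli are small -/
theorem annuli (hΓ : Γ.Connected) (x₀ : X) (r k : ℕ) {y z : X}
    (hch : Relation.ReflTransGen (fun a b => (Even (Γ.dist x₀ a / (r + 1)) ↔
      Even (Γ.dist x₀ b / (r + 1))) ∧ Γ.dist a b ≤ r) y z)
    (hbn : ∀ m, Γ.dist x₀ m + Γ.dist m y = Γ.dist x₀ y → k < Γ.dist x₀ m → k < Γ.dist m y →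
      ¬ cn Γ {p | k < Γ.dist m p} x₀ y) :
    Γ.dist y z ≤ 4 * r + 4 * k + 4 := by
  classical
  set f : X → ℕ := fun p => Γ.dist x₀ p with hf
  set h := (r + 1) * (f y / (r + 1)) with hh
  have hdiv : ∀ p, (r + 1) * (f p / (r + 1)) ≤ f p ∧ f p < (r + 1) * (f p / (r + 1)) + (r + 1) := by
    intro p
    have h1 := Nat.div_add_mod (f p) (r + 1)
    have h2 : f p % (r + 1) < r + 1 := Nat.mod_lt (f p) (Nat.succ_pos r)
    constructor <;> omega
  have htri : ∀ a b c : X, Γ.dist a c ≤ Γ.dist a b + Γ.dist b c := fun a b c => hΓ.dist_triangle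
  have hlip : ∀ a b, Γ.dist a b ≤ r → f a ≤ f b + r ∧ f b ≤ f a + r := by
    intro a b hab
    have h1 : f b ≤ f a + Γ.dist a b := htri x₀ a b
    have h2 : f a ≤ f b + Γ.dist b a := htri x₀ b a
    rw [SimpleGraph.dist_comm (u := b) (v := a)] at h2
    constructor <;> omega
  -- all points of the chain are in the same annulus, and the chain stays at height `≥ h - r`
  have key : ∀ w, Relation.ReflTransGen (fun a b => (Even (Γ.dist x₀ a / (r + 1)) ↔
      Even (Γ.dist x₀ b / (r + 1))) ∧ Γ.dist a b ≤ r) y w →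
      f w / (r + 1) = f y / (r + 1) ∧ cn Γ {p | h ≤ f p + r} y w := by
    intro w hw
    induction hw with
    | refl => exact ⟨rfl, Relation.ReflTransGen.refl⟩
    | @tail a b _ hst ih =>
      obtain ⟨hab, hd⟩ := hst
      obtain ⟨ih1, ih2⟩ := ih
      obtain ⟨l1, l2⟩ := hlip a b hd
      have h1 : f b / (r + 1) = f a / (r + 1) :=
        div_close (Nat.succ_pos r) (by omega) (by omega) hab.symm
      refine ⟨h1.trans ih1, ih2.trans (cn_geo hΓ _ b _ a rfl ?_)⟩
      intro p hp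
      show h ≤ f p + r
      have h2 := (hdiv a).1
      rw [ih1] at h2
      have h3 := htri x₀ p a
      rw [SimpleGraph.dist_comm (u := p) (v := a)] at h3
      have h4 : f a ≤ f p + Γ.dist a p := h3
      omega
  obtain ⟨k1, k2⟩ := key z hch
  have hy := hdiv y
  have hz := hdiv z
  rw [k1] at hz
  have hyz := htri y x₀ z
  rw [SimpleGraph.dist_comm (u := y) (v := x₀)] at hyz
  have hyz' : Γ.dist y z ≤ f y + f z := hyz
  by_cases hsmall : h ≤ r + 2 * k + 1
  · omega
  · push Not at hsmall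
    set j := h - r - k - 1 with hj
    obtain ⟨m, hm1, hm2⟩ := point hΓ x₀ y j (by
      show j ≤ f y
      omega)
    have hm2' : Γ.dist m y + j = f y := hm2
    have hno := hbn m (by omega) (by omega) (by omega)
    have hzy : cn Γ {p | k < Γ.dist m p} z y := by
      refine cn_mono ?_ (cn_symm k2)
      intro p hp
      have hp' : h ≤ f p + r := hp
      show k < Γ.dist m p
      have h1 := htri x₀ m p
      have h1' : f p ≤ Γ.dist x₀ m + Γ.dist m p := h1
      omega
    have hno' : ¬ cn Γ {p | k < Γ.dist m p} x₀ z := fun h => hno (h.trans hzy)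
    obtain ⟨p, hp1, hp2⟩ : ∃ p, Γ.dist x₀ p + Γ.dist p z ≤ Γ.dist x₀ z ∧ Γ.dist m p ≤ k := by
      by_contra hcon
      push Not at hcon
      exact hno' (cn_geo hΓ _ z _ x₀ rfl fun p hp => hcon p hp)
    have e1 : Γ.dist m y = Γ.dist y m := SimpleGraph.dist_comm
    have h1 := htri y m z
    have h2 := htri m p z
    have h3 := htri x₀ p m
    rw [SimpleGraph.dist_comm (u := p) (v := m)] at h3
    have hp1' : Γ.dist x₀ p + Γ.dist p z ≤ f z := hp1
    omega

/-- balls -/
def bal (Γ : SimpleGraph X) (m : X) (n : ℕ) : Set X := {y | Γ.dist m y ≤ n}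

/-- thin spheres in small balls -/
theorem thin (m : X) (n K : ℕ)
    (hb : (bal Γ m n).encard < ((n / 2) * (K + 1) : ℕ)) :
    ∃ t, n ≤ 2 * t ∧ t + 1 ≤ n ∧ {z | Γ.dist m z = t + 1}.encard ≤ K := by
  by_contra hcon
  push Not at hcon
  have key : ∀ j, j ≤ n / 2 → ((j * (K + 1) : ℕ) : ℕ∞) ≤ (bal Γ m (n - n / 2 + j)).encard := by
    intro j
    induction j with
    | zero => intro _; simp
    | succ j ih =>
      intro hj
      have h1 := ih (by omega)
      have h2 := hcon (n - n / 2 + j) (by omega) (by omega)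
      have h3 : ((K + 1 : ℕ) : ℕ∞) ≤ {z | Γ.dist m z = n - n / 2 + j + 1}.encard := by
        have := Order.add_one_le_of_lt h2
        simpa using this
      have h4 : bal Γ m (n - n / 2 + (j + 1)) =
          bal Γ m (n - n / 2 + j) ∪ {z | Γ.dist m z = n - n / 2 + j + 1} := by
        ext z
        simp only [bal, Set.mem_union, Set.mem_setOf_eq]
        omega
      rw [h4, Set.encard_union_eq]
      · have h5 : (((j + 1) * (K + 1) : ℕ) : ℕ∞) = ((j * (K + 1) : ℕ) : ℕ∞) + ((K + 1 : ℕ) : ℕ∞) := by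
          push_cast; ring
        rw [h5]
        exact add_le_add h1 h3
      · rw [Set.disjoint_left]
        intro z hz hz'
        simp only [bal, Set.mem_setOf_eq] at hz hz'
        omega
  have h1 := key (n / 2) le_rfl
  have h2 : n - n / 2 + n / 2 = n := by omega
  rw [h2] at h1
  exact absurd (lt_of_le_of_lt h1 hb) (lt_irrefl _)

end Vale.Agent.P192.R2.H577
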