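import Vale.Agent.P192.R2.H577.Geo

set_option linter.all false

namespace Vale.Agent.P192.R2.H577

open SimpleGraph

universe u

variable {X : Type u} {Γ : SimpleGraph X}

theorem chain_or (hΓ : Γ.Connected) {R K : ℕ} {B Z F : Set X} (hB : B ⊆ Z ∪ F)
    (hZ : Z.encard ≤ K) {a b : X} (ha : a ∈ Z) (h : lnk Γ R B a b) :
    Γ.dist a b ≤ R * K ∨ ∃ c ∈ F, Γ.dist a c ≤ R * (K + 1) := by
  by_contra hcon
  push Not at hcon
  obtain ⟨h1, h2⟩ := hcon
  have key : ∀ w, lnk Γ R B a w → lnk Γ R Z a w := by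
    intro w hw
    induction hw with
    | refl => exact Relation.ReflTransGen.refl
    | @tail u w _ hst ih =>
      have hu := lnk_dist hΓ hZ ha ih
      have huZ : u ∈ Z := by
        have hmem : ∀ v, lnk Γ R Z a v → v ∈ Z := by
          intro v hv
          induction hv with
          | refl => exact ha
          | tail _ h _ => exact h.2.1
        exact hmem u ih
      rcases hB hst.2.1 with hw | hw
      · exact ih.tail ⟨huZ, hw, hst.2.2⟩
      · exfalso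
        have h3 := h2 w hw
        have h4 : Γ.dist a w ≤ Γ.dist a u + Γ.dist u w := hΓ.dist_triangle
        have h5 := hst.2.2
        rw [Nat.mul_succ] at h3
        omega
  exact absurd (lnk_dist hΓ hZ ha (key b h)) (by omega)

theorem ball_compl (hΓ : Γ.Connected) {E : Set X} {m : X} {t : ℕ} (hm : m ∉ E)
    (hbd : ∀ a ∈ bd Γ E, Γ.dist m a = t + 1) {p : X} (hp : Γ.dist m p ≤ t) : p ∉ E := by
  intro h
  obtain ⟨a, ha, ha'⟩ := exit hΓ E m hm _ p rfl h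
  have h1 := hbd a ha
  rw [SimpleGraph.dist_comm (u := m)] at h1 hp
  omega

theorem bd_sup {m : X} {t : ℕ} {a : X} (h : a ∈ bd Γ {p | t < Γ.dist m p})
    (hΓ : Γ.Connected) : Γ.dist m a = t + 1 := by
  obtain ⟨h1, b, hab, h2⟩ := h
  have h1' : t < Γ.dist m a := h1
  have h2' : ¬ t < Γ.dist m b := h2
  have h3 : Γ.dist m a ≤ Γ.dist m b + Γ.dist b a := hΓ.dist_triangle
  have h4 : Γ.dist b a = 1 := dist_eq_one_iff_adj.2 hab.symm
  omega

theorem arm (hΓ : Γ.Connected) {x m : X} {T : ℕ} (h : T < Γ.dist x m) :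
    ∃ x', Γ.dist x x' + Γ.dist x' m = Γ.dist x m ∧ Γ.dist x' m = T + 1 ∧
      cn Γ {p | T < Γ.dist m p} x x' := by
  obtain ⟨x', h1, h2⟩ := point hΓ x m (Γ.dist x m - (T + 1)) (by omega)
  refine ⟨x', by omega, by omega, cn_geo hΓ _ x' _ x rfl ?_⟩
  intro p hp
  show T < Γ.dist m p
  have h3 : Γ.dist x m ≤ Γ.dist x p + Γ.dist p m := hΓ.dist_triangle
  rw [SimpleGraph.dist_comm (u := p)] at h3
  omega

/-- columns, first part: the part of the graph reached from `x` comes close to `m` -/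
theorem column1 (hΓ : Γ.Connected) {R : ℕ} (hCB : CB Γ R) {x m y : X} {n s T K : ℕ}
    (hgeo : Γ.dist x m + Γ.dist m y = Γ.dist x y) (hx : n < Γ.dist x m) (hy : n < Γ.dist m y)
    (hcn : cn Γ {p | n < Γ.dist m p} x y) (h1 : R * K ≤ 2 * s) (h2 : R * (K + 1) + T + 1 < n)
    (Z Z' : Set X) (hZ : ∀ a b, Γ.Adj a b → b ∈ Z → a ∈ Z') (hZ' : Z'.encard ≤ K) :
    ∃ p, cn Γ ({p | Γ.dist m p ≤ n ∧ p ∉ Z} ∪ {z | cn Γ {p | T < Γ.dist m p} x z}) x p ∧
      Γ.dist m p ≤ s := by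
  classical
  by_contra hcon
  push Not at hcon
  set W : Set X := {p | Γ.dist m p ≤ n ∧ p ∉ Z} ∪ {z | cn Γ {p | T < Γ.dist m p} x z} with hW
  set A : Set X := {z | cn Γ W x z} with hA
  have hxm : Γ.dist m x = Γ.dist x m := SimpleGraph.dist_comm
  have hxW : x ∈ W := Or.inr Relation.ReflTransGen.refl
  have hxA : x ∈ A := Relation.ReflTransGen.refl
  have hAW : A ⊆ W := fun z hz => cn_mem hz hxW
  have hmA : m ∉ A := by
    intro h
    have := hcon m h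
    rw [SimpleGraph.dist_self] at this
    omega
  obtain ⟨E, hmE, hE, hE1, hE2, hE3⟩ := hexcut hΓ A x m hxA hmA
  have hTE : ∀ z, cn Γ {p | T < Γ.dist m p} x z → z ∈ E := by
    intro z hz
    apply hE
    have e1 : cn Γ W x z := cn_mono Set.subset_union_right (cn_self hz)
    exact cn_self e1
  obtain ⟨x', hx1, hx2, hx3⟩ := arm hΓ (x := x) (m := m) (T := T) (by omega)
  rw [SimpleGraph.dist_comm (u := m) (v := y)] at hy hgeo
  obtain ⟨y', hy1, hy2, hy3⟩ := arm hΓ (x := y) (m := m) (T := T) (by omega)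
  have hx'E := hTE x' hx3
  have hy'E : y' ∈ E := by
    apply hTE
    refine Relation.ReflTransGen.trans (cn_mono ?_ hcn) hy3
    intro p hp
    have hp' : n < Γ.dist m p := hp
    show T < Γ.dist m p
    omega
  obtain ⟨a, ha, ha'⟩ := exit hΓ E m hmE _ x' rfl hx'E
  obtain ⟨b, hb, hb'⟩ := exit hΓ E m hmE _ y' rfl hy'E
  have hbdA : bd Γ A ⊆ Z' ∪ {p | n ≤ Γ.dist m p} := by
    rintro c ⟨hc, d, hcd, hd⟩
    have hdW : d ∉ W := by
      intro h
      exact hd (Relation.ReflTransGen.tail hc ⟨hAW hc, h, hcd⟩)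
    by_cases hdZ : d ∈ Z
    · exact Or.inl (hZ c d hcd hdZ)
    · right
      have h3 : ¬ Γ.dist m d ≤ n := fun h => hdW (Or.inl ⟨h, hdZ⟩)
      have h4 : Γ.dist m d ≤ Γ.dist m c + Γ.dist c d := hΓ.dist_triangle
      have h5 : Γ.dist c d = 1 := dist_eq_one_iff_adj.2 hcd
      show n ≤ Γ.dist m c
      omega
  have e1 : Γ.dist m a = Γ.dist a m := SimpleGraph.dist_comm
  have e2 : Γ.dist m b = Γ.dist b m := SimpleGraph.dist_comm
  have hsa := hcon a (hE3 ha).1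
  have hsb := hcon b (hE3 hb).1
  have haZ : a ∈ Z' := by
    rcases hbdA (hE3 ha) with h | h
    · exact h
    · exfalso
      have h' : n ≤ Γ.dist m a := h
      omega
  rcases chain_or hΓ (hE3.trans hbdA) hZ' haZ (hCB E hE1 hE2 a ha b hb) with h | ⟨c, hc, h⟩
  · have t1 : Γ.dist x y ≤ Γ.dist x x' + Γ.dist x' y := hΓ.dist_triangle
    have t2 : Γ.dist x' y ≤ Γ.dist x' a + Γ.dist a y := hΓ.dist_triangle
    have t3 : Γ.dist a y ≤ Γ.dist a b + Γ.dist b y := hΓ.dist_triangle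
    have t4 : Γ.dist b y ≤ Γ.dist b y' + Γ.dist y' y := hΓ.dist_triangle
    have e3 : Γ.dist y' b = Γ.dist b y' := SimpleGraph.dist_comm
    have e4 : Γ.dist y' y = Γ.dist y y' := SimpleGraph.dist_comm
    omega
  · have hc' : n ≤ Γ.dist m c := hc
    have t1 : Γ.dist m c ≤ Γ.dist m a + Γ.dist a c := hΓ.dist_triangle
    omega

/-- rows and columns -/
theorem rows (hΓ : Γ.Connected) {R : ℕ} (hCB : CB Γ R) {x m y : X} {n s T K : ℕ}
    (hgeo : Γ.dist x m + Γ.dist m y = Γ.dist x y) (hx : n < Γ.dist x m) (hy : n < Γ.dist m y)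
    (hcn : cn Γ {p | n < Γ.dist m p} x y) (h1 : R * K ≤ 2 * s) (h2 : R * (K + 1) + T + 1 < n)
    (hsT : s ≤ T) :
    ∃ D : ℕ → Set X, (∀ t < T, ∀ a ∈ D t, Γ.dist m a = t + 1) ∧
      (∀ t < T, ∀ a ∈ D t, ∀ b ∈ D t, lnk Γ R (D t) a b) ∧
      ∀ Z Z' : Set X, (∀ a b, Γ.Adj a b → b ∈ Z → a ∈ Z') → Z'.encard ≤ K →
        ∃ Q : Set X, (∀ a ∈ Q, Γ.dist m a ≤ n ∧ a ∉ Z) ∧ (∀ a ∈ Q, ∀ b ∈ Q, cn Γ Q a b) ∧
          ∀ t, s ≤ t → t < T → (D t ∩ Q).Nonempty := by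
  classical
  have hxm : Γ.dist m x = Γ.dist x m := SimpleGraph.dist_comm
  have hex : ∀ t, t < T → ∃ E : Set X, m ∉ E ∧
      (∀ y, cn Γ {p | t < Γ.dist m p} x y → y ∈ E) ∧ (∀ a ∈ E, ∀ b ∈ E, cn Γ E a b) ∧
      (∀ a ∉ E, ∀ b ∉ E, cn Γ Eᶜ a b) ∧ bd Γ E ⊆ bd Γ {p | t < Γ.dist m p} := by
    intro t ht
    apply hexcut hΓ
    · show t < Γ.dist m x
      omega
    · show ¬ t < Γ.dist m m
      rw [SimpleGraph.dist_self]
      omega
  choose! E hE1 hE2 hE3 hE4 hE5 using hex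
  have hbd : ∀ t < T, ∀ a ∈ bd Γ (E t), Γ.dist m a = t + 1 :=
    fun t ht a ha => bd_sup (hE5 t ht ha) hΓ
  refine ⟨fun t => bd Γ (E t), hbd, fun t ht a ha b hb => hCB _ (hE3 t ht) (hE4 t ht) a ha b hb, ?_⟩
  intro Z Z' hZ hZ'
  obtain ⟨p, hp, hps⟩ := column1 hΓ hCB hgeo hx hy hcn h1 h2 Z Z' hZ hZ'
  set HZ : Set X := {p | Γ.dist m p ≤ n ∧ p ∉ Z} with hHZ
  set AT : Set X := {z | cn Γ {p | T < Γ.dist m p} x z} with hAT
  have hATd : ∀ z ∈ AT, T < Γ.dist m z := by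
    intro z hz
    have hz' : cn Γ {p | T < Γ.dist m p} x z := hz
    have h3 : z ∈ {p | T < Γ.dist m p} := cn_mem hz' (by show T < Γ.dist m x; omega)
    exact h3
  have hpW : p ∈ HZ ∪ AT := cn_mem hp (Or.inr Relation.ReflTransGen.refl)
  have hpH : p ∈ HZ := by
    rcases hpW with h | h
    · exact h
    · have := hATd p h
      omega
  have hQH : ∀ a, cn Γ HZ p a → a ∈ HZ := fun a ha => cn_mem ha hpH
  refine ⟨{z | cn Γ HZ p z}, hQH, ?_, ?_⟩
  · intro a ha b hb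
    exact (cn_symm (cn_self ha)).trans (cn_self hb)
  · intro t hst htT
    have key : ∀ z, cn Γ (HZ ∪ AT) p z →
        (cn Γ HZ p z ∧ z ∉ E t) ∨ (bd Γ (E t) ∩ {z | cn Γ HZ p z}).Nonempty := by
      intro z hz
      induction hz with
      | refl =>
        exact Or.inl ⟨Relation.ReflTransGen.refl, ball_compl hΓ (hE1 t htT) (hbd t htT) (by omega)⟩
      | @tail u w _ hst' ih =>
        rcases ih with ⟨ih1, ih2⟩ | ih
        · have huH : u ∈ HZ := cn_mem ih1 hpH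
          have hbdw : w ∈ E t → w ∈ bd Γ (E t) := fun h => ⟨h, u, hst'.2.2.symm, ih2⟩
          rcases hst'.2.1 with hw | hw
          · have hwQ : cn Γ HZ p w := ih1.tail ⟨huH, hw, hst'.2.2⟩
            by_cases hwE : w ∈ E t
            · exact Or.inr ⟨w, hbdw hwE, hwQ⟩
            · exact Or.inl ⟨hwQ, hwE⟩
          · exfalso
            have hwE : w ∈ E t := by
              apply hE2 t htT
              refine cn_mono ?_ hw
              intro q hq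
              have hq' : T < Γ.dist m q := hq
              show t < Γ.dist m q
              omega
            have h3 := hbd t htT w (hbdw hwE)
            have h4 := hATd w hw
            omega
        · exact Or.inr ih
    rcases key x (cn_symm hp) with ⟨-, h⟩ | h
    · exact absurd (hE2 t htT x Relation.ReflTransGen.refl) h
    · exact h

/-- thickened rows -/
theorem thick (hΓ : Γ.Connected) {R : ℕ} {D : Set X} (hD : ∀ a ∈ D, ∀ b ∈ D, lnk Γ R D a b) :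
    ∀ z ∈ {z | ∃ a ∈ D, Γ.dist a z ≤ R}, ∀ w ∈ {z | ∃ a ∈ D, Γ.dist a z ≤ R},
      cn Γ {z | ∃ a ∈ D, Γ.dist a z ≤ R} z w := by
  have hgeo : ∀ a ∈ D, ∀ z, Γ.dist a z ≤ R → cn Γ {z | ∃ a ∈ D, Γ.dist a z ≤ R} a z := by
    intro a ha z hz
    apply cn_geo hΓ _ z _ a rfl
    intro p hp
    exact ⟨a, ha, by omega⟩
  rintro z ⟨a, ha, haz⟩ w ⟨b, hb, hbw⟩
  refine (cn_symm (hgeo a ha z haz)).trans (Relation.ReflTransGen.trans ?_ (hgeo b hb w hbw))
  have h1 := hD a ha b hb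
  have key : ∀ c, lnk Γ R D a c → cn Γ {z | ∃ a ∈ D, Γ.dist a z ≤ R} a c := by
    intro c hc
    induction hc with
    | refl => exact Relation.ReflTransGen.refl
    | @tail u v _ hst ih => exact ih.trans (hgeo u hst.1 v hst.2.2)
  exact key b h1

/-- pseudo-grids in graphs -/
theorem pseudo (hΓ : Γ.Connected) {R : ℕ} (hCB : CB Γ R) {x m y : X} {n s T K J : ℕ}
    (hgeo : Γ.dist x m + Γ.dist m y = Γ.dist x y) (hx : n < Γ.dist x m) (hy : n < Γ.dist m y)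
    (hcn : cn Γ {p | n < Γ.dist m p} x y) (h1 : R * K ≤ 2 * s) (h2 : R * (K + 1) + T + 1 < n)
    (hJ : s + (2 * R + 1) * J ≤ T) :
    ∃ D : Fin J → Set X, (∀ i j, i ≠ j → Disjoint (D i) (D j)) ∧
      (∀ i, ∀ a ∈ D i, Γ.dist m a ≤ n) ∧ (∀ i, ∀ a ∈ D i, ∀ b ∈ D i, cn Γ (D i) a b) ∧
      ∀ Z Z' : Set X, (∀ a b, Γ.Adj a b → b ∈ Z → a ∈ Z') → Z'.encard ≤ K →
        ∃ Q : Set X, (∀ a ∈ Q, Γ.dist m a ≤ n ∧ a ∉ Z) ∧ (∀ a ∈ Q, ∀ b ∈ Q, cn Γ Q a b) ∧
          ∀ i, (D i ∩ Q).Nonempty := by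
  obtain ⟨D, hD1, hD2, hD3⟩ := rows hΓ hCB hgeo hx hy hcn h1 h2 (by omega)
  have ht : ∀ i : Fin J, s + (2 * R + 1) * i.1 < T := by
    intro i
    have h3 : (2 * R + 1) * (i.1 + 1) ≤ (2 * R + 1) * J := Nat.mul_le_mul_left _ i.2
    rw [Nat.mul_succ] at h3
    omega
  have hRK : R ≤ R * (K + 1) := Nat.le_mul_of_pos_right _ (Nat.succ_pos K)
  have hdist : ∀ i : Fin J, ∀ z ∈ {z | ∃ a ∈ D (s + (2 * R + 1) * i.1), Γ.dist a z ≤ R},
      Γ.dist m z ≤ s + (2 * R + 1) * i.1 + 1 + R ∧ s + (2 * R + 1) * i.1 + 1 ≤ Γ.dist m z + R := by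
    rintro i z ⟨a, ha, haz⟩
    have h3 := hD1 _ (ht i) a ha
    have h4 : Γ.dist m z ≤ Γ.dist m a + Γ.dist a z := hΓ.dist_triangle
    have h5 : Γ.dist m a ≤ Γ.dist m z + Γ.dist z a := hΓ.dist_triangle
    rw [SimpleGraph.dist_comm (u := z)] at h5
    constructor <;> omega
  refine ⟨fun i => {z | ∃ a ∈ D (s + (2 * R + 1) * i.1), Γ.dist a z ≤ R}, ?_, ?_, ?_, ?_⟩
  · have key : ∀ i j : Fin J, i.1 < j.1 →
        Disjoint {z | ∃ a ∈ D (s + (2 * R + 1) * i.1), Γ.dist a z ≤ R}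
          {z | ∃ a ∈ D (s + (2 * R + 1) * j.1), Γ.dist a z ≤ R} := by
      intro i j hij
      rw [Set.disjoint_left]
      intro z hz hz'
      have h3 := (hdist i z hz).1
      have h4 := (hdist j z hz').2
      have h5 : (2 * R + 1) * (i.1 + 1) ≤ (2 * R + 1) * j.1 := Nat.mul_le_mul_left _ hij
      rw [Nat.mul_succ] at h5
      omega
    intro i j hij
    rcases Nat.lt_or_gt_of_ne (fun h => hij (Fin.ext h)) with h | h
    · exact key i j h
    · exact (key j i h).symm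
  · intro i a ha
    have h3 := (hdist i a ha).1
    have h4 := ht i
    omega
  · intro i
    exact thick hΓ (hD2 _ (ht i))
  · intro Z Z' hZ hZ'
    obtain ⟨Q, hQ1, hQ2, hQ3⟩ := hD3 Z Z' hZ hZ'
    refine ⟨Q, hQ1, hQ2, fun i => ?_⟩
    obtain ⟨z, hz1, hz2⟩ := hQ3 (s + (2 * R + 1) * i.1) (by omega) (ht i)
    exact ⟨z, ⟨z, hz1, by rw [SimpleGraph.dist_self]; omega⟩, hz2⟩

end Vale.Agent.P192.R2.H577
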