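import Vale.Agent.P192.R2.H577.Grid
import Vale.Agent.P192.R2.H577.Sch
import Vale.Agent.P192.R2.H577.Defs
import Vale.Agent.P192.H630.Wob

set_option linter.all false

namespace Vale.Agent.P192.R2.H577

open SimpleGraph Vale.Agent.P192 Vale.Agent.P192.H437

universe u v

section

variable {G : Type v} [Group G] {S : Set G} {X : Type u} [MulAction G X]

theorem nbhd_card {d : ℕ} (hd : (S ∪ {s | s⁻¹ ∈ S}).encard ≤ d) (x : X) :
    ((sch S X).neighborSet x).encard ≤ d := by
  have h1 : (sch S X).neighborSet x ⊆ (fun s : G => s • x) '' (S ∪ {s | s⁻¹ ∈ S}) := by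
    rintro y ⟨-, s, hs, rfl⟩
    exact ⟨s, hs, rfl⟩
  exact (Set.encard_le_encard h1).trans ((Set.encard_image_le _ _).trans hd)

theorem ball_card {d : ℕ} (hd : (S ∪ {s | s⁻¹ ∈ S}).encard ≤ d) (x : X) (n : ℕ) :
    {y | hop S n x y}.encard ≤ (((d + 1) ^ n : ℕ) : ℕ∞) := by
  refine le_trans (Set.encard_le_encard ?_)
    (H630.near_card (sch S X) d (fun x => nbhd_card hd x) n x)
  intro y hy
  exact walk_of_hop hy

theorem pt_grid {c : ℝ} {n : ℕ} (h : c * n < 1) (m : X) : grid S c n m := by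
  refine ⟨1, fun _ => {m}, by simpa using h.le, fun i j hij => absurd (Subsingleton.elim i j) hij,
    ?_, ?_, ?_⟩
  · intro i a ha
    have : a = m := ha
    rw [this]
    exact ⟨[], by simp, by simp, by simp⟩
  · intro i a ha b hb
    have h1 : a = m := ha
    have h2 : b = m := hb
    rw [h1, h2]
    exact Relation.ReflTransGen.refl
  · intro k Z hk hZ
    have hk0 : k = 0 := by
      have h1 : (k : ℝ) < 1 := lt_of_le_of_lt hk h
      have h2 : k < 1 := by exact_mod_cast h1
      omega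
    rw [hk0] at hZ
    have hZ0 : Z = ∅ := by simpa using hZ
    refine ⟨{m}, ?_, ?_, fun i => ⟨m, rfl, rfl⟩⟩
    · intro a ha
      have : a = m := ha
      rw [this, hZ0]
      exact ⟨⟨[], by simp, by simp, by simp⟩, by simp⟩
    · intro a ha b hb
      have h1 : a = m := ha
      have h2 : b = m := hb
      rw [h1, h2]
      exact Relation.ReflTransGen.refl

theorem grid_of {R d : ℕ} (hd : (S ∪ {s | s⁻¹ ∈ S}).encard ≤ d) (hc : (sch S X).Connected)
    (hCB : CB (sch S X) R) {x m y : X} {n : ℕ}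
    (hgeo : (sch S X).dist x m + (sch S X).dist m y = (sch S X).dist x y)
    (hx : n < (sch S X).dist x m) (hy : n < (sch S X).dist m y)
    (hcn : cn (sch S X) {p | n < (sch S X).dist m p} x y) :
    grid S (1 / (100 * (R + 1) * (d + 1)) : ℝ) n m := by
  have hRd : (0 : ℝ) < 100 * (R + 1) * (d + 1) := by positivity
  by_cases hn : n < 100 * (R + 1) * (d + 1)
  · apply pt_grid
    have h1 : (n : ℝ) < 100 * (R + 1) * (d + 1) := by exact_mod_cast hn
    rw [div_mul_eq_mul_div, one_mul, div_lt_one hRd]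
    exact h1
  push Not at hn
  have hn1 : 100 * (R + 1) ≤ n := le_trans (Nat.le_mul_of_pos_right _ (Nat.succ_pos d)) hn
  set K := n / (100 * (R + 1)) with hK
  have hK1 : 100 * (R + 1) * K ≤ n := Nat.mul_div_le _ _
  have hRK : 100 * (R * K) ≤ n := by
    refine le_trans ?_ hK1
    rw [← mul_assoc]
    exact Nat.mul_le_mul_right _ (Nat.mul_le_mul_left _ (Nat.le_succ R))
  set J := n / 8 / (2 * R + 1) with hJ
  have hJ1 : (2 * R + 1) * J ≤ n / 8 := Nat.mul_div_le _ _
  have hJ2 : n / 8 < (2 * R + 1) * (J + 1) := Nat.lt_mul_div_succ _ (by omega)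
  obtain ⟨D, h1, h2, h3, h4⟩ := pseudo (J := J) hc hCB hgeo hx hy hcn (s := n / 4) (T := n / 2)
    (K := K) (by omega) (by rw [Nat.mul_succ]; omega) (by omega)
  refine ⟨J, D, ?_, h1, ?_, fun i a ha b hb => linked_cn (h3 i a ha b hb), ?_⟩
  · have e1 : n < 8 * ((2 * R + 1) * (J + 1)) := by omega
    have e2 : 8 * ((2 * R + 1) * (J + 1)) ≤ 16 * ((R + 1) * (J + 1)) := by nlinarith
    have e3 : 6 ≤ J := by
      by_contra h
      push Not at h
      have e4 : 16 * ((R + 1) * (J + 1)) ≤ 16 * ((R + 1) * 6) :=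
        Nat.mul_le_mul_left _ (Nat.mul_le_mul_left _ (by omega))
      omega
    have e4 : n ≤ 100 * (R + 1) * J := by nlinarith
    have e5 : (n : ℝ) ≤ 100 * (R + 1) * J := by exact_mod_cast e4
    rw [div_mul_eq_mul_div, one_mul, div_le_iff₀ hRd]
    have e6 : (0 : ℝ) ≤ J := Nat.cast_nonneg _
    have e7 : (0 : ℝ) ≤ d := Nat.cast_nonneg _
    have e8 : (0 : ℝ) ≤ R := Nat.cast_nonneg _
    calc (n : ℝ) ≤ 100 * (R + 1) * J := e5
      _ = J * (100 * (R + 1) * 1) := by ring
      _ ≤ J * (100 * (R + 1) * (d + 1)) := by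
        apply mul_le_mul_of_nonneg_left _ e6
        apply mul_le_mul_of_nonneg_left _ (by positivity)
        linarith
  · intro i a ha
    rw [hop_iff hc]
    exact h2 i a ha
  · intro k Z hk hZ
    have hkK : k * d ≤ K := by
      rw [hK, Nat.le_div_iff_mul_le (by omega)]
      rw [div_mul_eq_mul_div, one_mul, le_div_iff₀ hRd] at hk
      have e1 : k * (100 * (R + 1) * (d + 1)) ≤ n := by exact_mod_cast hk
      refine le_trans ?_ e1
      calc k * d * (100 * (R + 1)) = k * (100 * (R + 1) * d) := by ring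
        _ ≤ k * (100 * (R + 1) * (d + 1)) :=
          Nat.mul_le_mul_left _ (Nat.mul_le_mul_left _ (Nat.le_succ d))
    obtain ⟨Q, q1, q2, q3⟩ := h4 Z (⋃ b ∈ Z, (sch S X).neighborSet b)
      (by
        intro a b hab hb
        exact Set.mem_biUnion hb hab.symm)
      (by
        refine (H630.biUnion_le Z _ k d hZ fun b _ => nbhd_card hd b).trans ?_
        exact_mod_cast hkK)
    refine ⟨Q, fun a ha => ⟨(hop_iff hc).2 (q1 a ha).1, (q1 a ha).2⟩,
      fun a ha b hb => linked_cn (q2 a ha b hb), q3⟩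

/-- grids have many points -/
theorem grid_card {c : ℝ} {n b : ℕ} {m : X} (hc : 0 ≤ c) (h : grid S c n m)
    (hb : {y | hop S n m y}.encard ≤ b) : (c * n) ^ 2 ≤ b := by
  obtain ⟨J, D, h1, h2, h3, h4, h5⟩ := h
  have hcn : 0 ≤ c * n := mul_nonneg hc (Nat.cast_nonneg _)
  set z := ⌊c * n⌋₊ with hz
  have hz1 : (z : ℝ) ≤ c * n := Nat.floor_le hcn
  have hz2 : c * n < z + 1 := Nat.lt_floor_add_one _
  have hD : ∀ i, ((z + 1 : ℕ) : ℕ∞) ≤ (D i).encard := by
    intro i
    by_contra hcon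
    push Not at hcon
    have h6 : (D i).encard ≤ z := by
      have : (D i).encard < (z : ℕ∞) + 1 := by exact_mod_cast hcon
      exact Order.le_of_lt_add_one this
    obtain ⟨Q, q1, -, q3⟩ := h5 z (D i) hz1 h6
    obtain ⟨a, ha1, ha2⟩ := q3 i
    exact (q1 a ha2).2 ha1
  have hsum : ∀ j ≤ J, ((j * (z + 1) : ℕ) : ℕ∞) ≤ (⋃ i : Fin J, ⋃ _ : i.1 < j, D i).encard := by
    intro j
    induction j with
    | zero => intro _; simp
    | succ j ih =>
      intro hj
      have h6 := ih (by omega)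
      have h7 : (⋃ i : Fin J, ⋃ _ : i.1 < j + 1, D i) =
          (⋃ i : Fin J, ⋃ _ : i.1 < j, D i) ∪ D ⟨j, hj⟩ := by
        ext a
        simp only [Set.mem_iUnion, Set.mem_union]
        constructor
        · rintro ⟨i, hi, ha⟩
          rcases Nat.lt_or_ge i.1 j with h | h
          · exact Or.inl ⟨i, h, ha⟩
          · right
            have : i = ⟨j, hj⟩ := Fin.ext (by show i.1 = j; omega)
            rwa [← this]
        · rintro (⟨i, hi, ha⟩ | ha)
          · exact ⟨i, by omega, ha⟩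
          · exact ⟨⟨j, hj⟩, by show j < j + 1; omega, ha⟩
      rw [h7, Set.encard_union_eq]
      · have h8 : (((j + 1) * (z + 1) : ℕ) : ℕ∞) = ((j * (z + 1) : ℕ) : ℕ∞) + ((z + 1 : ℕ) : ℕ∞) := by
          push_cast; ring
        rw [h8]
        exact add_le_add h6 (hD _)
      · rw [Set.disjoint_left]
        intro a ha ha'
        simp only [Set.mem_iUnion] at ha
        obtain ⟨i, hi, ha⟩ := ha
        have hne : i ≠ ⟨j, hj⟩ := by
          intro h
          rw [h] at hi
          exact lt_irrefl _ hi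
        exact Set.disjoint_left.1 (h2 i _ hne) ha ha'
  have h6 : (⋃ i : Fin J, ⋃ _ : i.1 < J, D i) ⊆ {y | hop S n m y} := by
    intro a ha
    simp only [Set.mem_iUnion] at ha
    obtain ⟨i, -, ha⟩ := ha
    exact h3 i a ha
  have h7 := (hsum J le_rfl).trans ((Set.encard_le_encard h6).trans hb)
  have h8 : J * (z + 1) ≤ b := by exact_mod_cast h7
  have h9 : ((J : ℝ) * (z + 1)) ≤ b := by exact_mod_cast h8
  refine le_trans ?_ h9
  rw [sq]
  exact mul_le_mul h1 hz2.le hcn (Nat.cast_nonneg _)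

end

end Vale.Agent.P192.R2.H577
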