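import Vale.Agent.P192.R2.H577.Loc

set_option linter.all false

namespace Vale.Agent.P192.R2.H577

open SimpleGraph Vale.Agent.P192 Vale.Agent.P192.H437

universe u v

theorem num_dbl (d r m k : ℕ) :
    (((d + 1) ^ (4 * r + 4 * k + 4) + 2) ^ (m * (d + 1) ^ (4 * r + 4 * k + 4))) ≤
      2 ^ (2 ^ ((2 * (d * (4 * r + 4) + 2) + m) * (k + 1))) := by
  set K := (d + 1) ^ (4 * r + 4 * k + 4) with hK
  set a := d * (4 * r + 4) + 2 with ha
  have hK1 : 1 ≤ K := Nat.one_le_pow _ _ (Nat.succ_pos d)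
  have h1 : d + 1 ≤ 2 ^ d := Nat.lt_two_pow_self
  have h2 : K ≤ 2 ^ (d * (4 * r + 4) * (k + 1)) := by
    calc K ≤ (2 ^ d) ^ (4 * r + 4 * k + 4) := Nat.pow_le_pow_left h1 _
      _ = 2 ^ (d * (4 * r + 4 * k + 4)) := by rw [← pow_mul]
      _ ≤ 2 ^ (d * (4 * r + 4) * (k + 1)) := by
        apply Nat.pow_le_pow_right (by omega)
        rw [mul_assoc]
        apply Nat.mul_le_mul_left
        nlinarith [Nat.zero_le (r * k)]
  have h3 : K + 2 ≤ 2 ^ (a * (k + 1)) := by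
    calc K + 2 ≤ K * 4 := by omega
      _ ≤ 2 ^ (d * (4 * r + 4) * (k + 1)) * 2 ^ 2 := Nat.mul_le_mul h2 (by norm_num)
      _ = 2 ^ (d * (4 * r + 4) * (k + 1) + 2) := by rw [pow_add]
      _ ≤ 2 ^ (a * (k + 1)) := by
        apply Nat.pow_le_pow_right (by omega)
        rw [ha, add_mul]
        omega
  have h4 : a * (k + 1) ≤ 2 ^ (a * (k + 1)) := Nat.lt_two_pow_self.le
  have h5 : m ≤ 2 ^ (m * (k + 1)) :=
    Nat.lt_two_pow_self.le.trans (Nat.pow_le_pow_right (by omega) (Nat.le_mul_of_pos_right _ (by omega)))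
  calc (K + 2) ^ (m * K) ≤ (2 ^ (a * (k + 1))) ^ (m * K) := Nat.pow_le_pow_left h3 _
    _ = 2 ^ (a * (k + 1) * (m * K)) := by rw [← pow_mul]
    _ ≤ 2 ^ (2 ^ ((2 * a + m) * (k + 1))) := by
      apply Nat.pow_le_pow_right (by omega)
      calc a * (k + 1) * (m * K) ≤ 2 ^ (a * (k + 1)) * (2 ^ (m * (k + 1)) * 2 ^ (a * (k + 1))) := by
            apply Nat.mul_le_mul h4
            apply Nat.mul_le_mul h5
            omega
        _ = 2 ^ ((2 * a + m) * (k + 1)) := by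
            rw [← pow_add, ← pow_add]; congr 1; ring

/-- pseudo-grids, local form -/
theorem grid_local (G : Type v) [Group G] [Group.IsFinitelyPresented G] (hG : IsMulTorsion G)
    (S : Set G) (hSf : S.Finite) (hS : Subgroup.closure S = ⊤) :
    ∃ c : ℝ, 0 < c ∧ ∃ C : ℕ, ∀ (X : Type u) [MulAction G X] [MulAction.IsPretransitive G X]
      (x : X) (n k : ℕ), 2 ^ (2 ^ (C * (k + 1))) ≤ n → (∃ y, ¬ hop S n x y) →
      ∃ y, hop S n x y ∧ grid S c k y := by
  obtain ⟨R, hR⟩ := boundary_linked.{u, v} G hG S hSf hS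
  obtain ⟨r, m, hm⟩ := local_core.{u, v} G hG S hS
  have hSS : (S ∪ {s | s⁻¹ ∈ S}).Finite := by
    refine hSf.union ?_
    have : {s | s⁻¹ ∈ S} = (fun s : G => s⁻¹) '' S := by
      ext s
      constructor
      · intro h; exact ⟨s⁻¹, h, inv_inv s⟩
      · rintro ⟨t, ht, rfl⟩; show (t⁻¹)⁻¹ ∈ S; rw [inv_inv]; exact ht
    rw [this]
    exact hSf.image _
  set d := (S ∪ {s | s⁻¹ ∈ S}).ncard with hd
  have hd' : (S ∪ {s | s⁻¹ ∈ S}).encard ≤ d := by rw [hd, hSS.cast_ncard_eq]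
  refine ⟨1 / (100 * (R + 1) * (d + 1)), by positivity, 2 * (d * (4 * r + 4) + 2) + m, ?_⟩
  intro X _ _ x n k hn hne
  have : Nonempty X := ⟨x⟩
  have hc := sch_connected (X := X) hS
  by_contra hcon
  push Not at hcon
  have h1 := hm X x n k ((d + 1) ^ (4 * r + 4 * k + 4)) (by
    intro m' y hm' _ hgeo hx hy hcn
    refine hcon m' hm' (grid_of hd' hc (CB_of hc (hR X)) hgeo hx hy hcn)) (by
    intro y _
    exact ball_card hd' y _) hne
  have h2 := num_dbl d r m k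
  omega

theorem linked_val {G : Type v} [Group G] {X : Type u} [MulAction G X] {S : Set G} {x : X}
    {R : ℕ} {D : Set (MulAction.orbit G x)} {a b : MulAction.orbit G x}
    (h : linked S R D a b) : linked S R (Subtype.val '' D) a.1 b.1 := by
  induction h with
  | refl => exact Relation.ReflTransGen.refl
  | @tail b c _ hst ih =>
    obtain ⟨h1, h2, w, h3, h4, h5⟩ := hst
    exact ih.tail ⟨⟨b, h1, rfl⟩, ⟨c, h2, rfl⟩, w, h3, h4, congrArg Subtype.val h5⟩

theorem hop_val {G : Type v} [Group G] {X : Type u} [MulAction G X] {S : Set G} {x : X}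
    {R : ℕ} {a b : MulAction.orbit G x} (h : hop S R a b) : hop S R a.1 b.1 := by
  obtain ⟨w, h3, h4, h5⟩ := h
  exact ⟨w, h3, h4, congrArg Subtype.val h5⟩

theorem grid_val {G : Type v} [Group G] {X : Type u} [MulAction G X] {S : Set G} {x : X}
    {c : ℝ} {n : ℕ} {m : MulAction.orbit G x} (h : grid S c n m) : grid S c n m.1 := by
  obtain ⟨J, D, h1, h2, h3, h4, h5⟩ := h
  refine ⟨J, fun i => Subtype.val '' D i, h1, ?_, ?_, ?_, ?_⟩
  · intro i j hij
    exact Set.disjoint_image_of_injective Subtype.val_injective (h2 i j hij)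
  · rintro i _ ⟨a, ha, rfl⟩
    exact hop_val (h3 i a ha)
  · rintro i _ ⟨a, ha, rfl⟩ _ ⟨b, hb, rfl⟩
    exact linked_val (h4 i a ha b hb)
  · intro k Z hk hZ
    obtain ⟨Q, q1, q2, q3⟩ := h5 k (Subtype.val ⁻¹' Z) hk (by
      rw [← Subtype.val_injective.encard_image]
      exact (Set.encard_le_encard (Set.image_preimage_subset _ _)).trans hZ)
    refine ⟨Subtype.val '' Q, ?_, ?_, ?_⟩
    · rintro _ ⟨a, ha, rfl⟩
      exact ⟨hop_val (q1 a ha).1, (q1 a ha).2⟩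
    · rintro _ ⟨a, ha, rfl⟩ _ ⟨b, hb, rfl⟩
      exact linked_val (q2 a ha b hb)
    · intro i
      obtain ⟨a, ha1, ha2⟩ := q3 i
      exact ⟨a.1, ⟨a, ha1, rfl⟩, ⟨a, ha2, rfl⟩⟩

/-- pseudo-grids, uniform form -/
theorem grid_uniform (G : Type v) [Group G] [Group.IsFinitelyPresented G] (hG : IsMulTorsion G)
    (S : Set G) (hSf : S.Finite) (hS : Subgroup.closure S = ⊤) :
    ∃ c : ℝ, 0 < c ∧ ∀ k : ℕ, ∃ N : Subgroup G, N.Normal ∧ N.FiniteIndex ∧
      ∀ (X : Type u) [MulAction G X], (∀ m : X, ¬ grid S c k m) → ∀ g ∈ N, ∀ x : X, g • x = x := by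
  obtain ⟨c, hc, C, h⟩ := grid_local.{u, v} G hG S hSf hS
  refine ⟨c, hc, fun k => ?_⟩
  have hSS : (S ∪ {s | s⁻¹ ∈ S}).Finite := by
    refine hSf.union ?_
    have : {s | s⁻¹ ∈ S} = (fun s : G => s⁻¹) '' S := by
      ext s
      constructor
      · intro h; exact ⟨s⁻¹, h, inv_inv s⟩
      · rintro ⟨t, ht, rfl⟩; show (t⁻¹)⁻¹ ∈ S; rw [inv_inv]; exact ht
    rw [this]
    exact hSf.image _
  set d := (S ∪ {s | s⁻¹ ∈ S}).ncard with hd
  have hd' : (S ∪ {s | s⁻¹ ∈ S}).encard ≤ d := by rw [hd, hSS.cast_ncard_eq]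
  set n := 2 ^ (2 ^ (C * (k + 1))) with hn
  obtain ⟨N, h1, h2, h3⟩ := exists_kernel.{u, v} G ((d + 1) ^ n)
  refine ⟨N, h1, h2, ?_⟩
  intro X _ hX g hg x
  refine h3 X x ?_ g hg
  let x' : MulAction.orbit G x := ⟨x, MulAction.mem_orbit_self x⟩
  have hall : ∀ y : MulAction.orbit G x, hop S n x' y := by
    by_contra hcon
    push Not at hcon
    obtain ⟨y, -, hy⟩ := h (MulAction.orbit G x) x' n k le_rfl hcon
    exact hX y.1 (grid_val hy)
  refine le_trans (Set.encard_le_encard ?_) (ball_card hd' x n)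
  intro y hy
  exact hop_val (hall ⟨y, hy⟩)

end Vale.Agent.P192.R2.H577
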