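import Vale.Agent.P192.R2.H577.Main

set_option linter.all false

namespace Vale.Agent.P192.R2.H577

open SimpleGraph Vale.Agent.P192 Vale.Agent.P192.H437

universe u v w

section haven

variable {X : Type u} {Γ : SimpleGraph X} {V : Type w} {T : SimpleGraph V} {B : V → Set X}

theorem bag_in {r u : V} {Z : Set V} (h : Good T r u Z) {x : X}
    (hconn : (T.induce {t | x ∈ B t}).Connected) {t t' : V}
    (hx : x ∈ B t) (ht : t ∈ Z) (hx' : x ∈ B t') (hu : x ∉ B u) : t' ∈ Z := by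
  by_contra ht'
  obtain ⟨p⟩ := hconn.preconnected ⟨t, hx⟩ ⟨t', hx'⟩
  have h1 := h.walk (p.map (SimpleGraph.Embedding.induce {t | x ∈ B t}).toHom) ht ht'
  rw [SimpleGraph.Walk.support_map, List.mem_map] at h1
  obtain ⟨a, -, ha⟩ := h1
  have h2 : x ∈ B a.1 := a.2
  have h3 : a.1 = u := ha
  rw [h3] at h2
  exact hu h2

theorem side {r u : V} {Z : Set V} (h : Good T r u Z) {A W : Set X} (hWA : W ⊆ A)
    (hconn : ∀ x ∈ A, (T.induce {t | x ∈ B t}).Connected)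
    (hcov : ∀ x ∈ A, ∀ y ∈ A, Γ.Adj x y → ∃ t, x ∈ B t ∧ y ∈ B t)
    (hWu : ∀ a ∈ W, a ∉ B u) {x y : X} (hx : x ∈ W) (hxy : cn Γ W x y) {t : V} (ht : t ∈ Z)
    (hxt : x ∈ B t) : ∀ t', y ∈ B t' → t' ∈ Z := by
  induction hxy with
  | refl =>
    intro t' ht'
    exact bag_in h (hconn x (hWA hx)) hxt ht ht' (hWu x hx)
  | @tail b c _ hst ih =>
    intro t' ht'
    obtain ⟨t'', h1, h2⟩ := hcov b (hWA hst.1) c (hWA hst.2.1) hst.2.2
    exact bag_in h (hconn c (hWA hst.2.1)) h2 (ih t'' h1) ht' (hWu c hst.2.1)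

/-- a tree decomposition has no haven -/
theorem haven {A : Set X} (hA : A.Finite) (hT : T.IsTree)
    (hconn : ∀ x ∈ A, (T.induce {t | x ∈ B t}).Connected)
    (hcov : ∀ x ∈ A, ∀ y ∈ A, Γ.Adj x y → ∃ t, x ∈ B t ∧ y ∈ B t)
    (W : V → Set X) (hWA : ∀ t, W t ⊆ A) (hWc : ∀ t, ∀ a ∈ W t, ∀ b ∈ W t, cn Γ (W t) a b)
    (hWB : ∀ t, ∀ a ∈ W t, a ∉ B t) (hWW : ∀ t t', (W t ∩ W t').Nonempty) : False := by
  classical
  obtain ⟨r⟩ := hT.connected.nonempty
  have hτ : ∀ x : X, ∃ t, x ∈ A → x ∈ B t := fun x => by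
    by_cases hx : x ∈ A
    · obtain ⟨t⟩ := (hconn x hx).nonempty
      exact ⟨t.1, fun _ => t.2⟩
    · exact ⟨r, fun h => absurd h hx⟩
  choose τ hτ using hτ
  obtain ⟨D0, hD0⟩ : ∃ D0, ∀ y ∈ A, T.dist r (τ y) ≤ D0 := by
    obtain ⟨b, hb⟩ := (hA.image (fun y => T.dist r (τ y))).bddAbove
    exact ⟨b, fun y hy => hb ⟨y, hy, rfl⟩⟩
  let P : ℕ → Prop := fun d => ∃ u Z, Good T r u Z ∧ (∀ x ∈ W u, ∀ t, x ∈ B t → t ∈ Z) ∧
    T.dist r u = d
  have hbound : ∀ d, P d → d ≤ D0 := by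
    rintro d ⟨u, Z, hg, hZ, rfl⟩
    obtain ⟨x, hx, -⟩ := hWW u u
    have h1 := hZ x hx (τ x) (hτ x (hWA u hx))
    have h2 := hg.depth hT h1
    have h3 := hD0 x (hWA u hx)
    omega
  obtain ⟨d, hd, hmax⟩ : ∃ d, P d ∧ ∀ d', P d' → d' ≤ d := by
    have hex : P (T.dist r r) := by
      refine ⟨r, {t | t ≠ r}, ⟨by simp, by simp, fun t ht t' _ hne => hne⟩, ?_, rfl⟩
      intro x hx t ht h
      rw [h] at ht
      exact hWB r x hx ht
    exact ⟨Nat.findGreatest P D0, Nat.findGreatest_spec (hbound _ hex) hex,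
      fun m' hm' => Nat.le_findGreatest (hbound _ hm') hm'⟩
  obtain ⟨u, Z, hgood, hZ, hdu⟩ := hd
  obtain ⟨y, hyu, -⟩ := hWW u u
  set t1 := τ y with ht1
  have hyt1 : y ∈ B t1 := hτ y (hWA u hyu)
  have ht1Z : t1 ∈ Z := hZ y hyu t1 hyt1
  let C1 : Set V := {t | ∃ p : T.Walk t1 t, u ∉ p.support}
  have hC1Z : C1 ⊆ Z := by
    rintro t ⟨p, hp⟩
    by_contra ht
    exact hp (hgood.walk p ht1Z ht)
  have hut1 : u ≠ t1 := fun h => hgood.hu (by rw [h]; exact ht1Z)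
  have ht1C : t1 ∈ C1 := ⟨SimpleGraph.Walk.nil, by simpa using hut1⟩
  have hgC1 : Good T r u C1 := by
    refine ⟨fun h => hgood.hr (hC1Z h), fun h => hgood.hu (hC1Z h), ?_⟩
    rintro t ⟨p, hp⟩ t' hadj hne
    refine ⟨p.concat hadj, ?_⟩
    rw [SimpleGraph.Walk.support_concat]
    simp only [List.concat_eq_append, List.mem_append, List.mem_singleton, not_or]
    exact ⟨hp, fun h => hne h.symm⟩
  have hWC1 : ∀ x ∈ W u, ∀ t, x ∈ B t → t ∈ C1 := by
    intro x hx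
    exact side hgC1 (hWA u) hconn hcov (hWB u) hyu (hWc u y hyu x hx) ht1C hyt1
  obtain ⟨p⟩ := hT.connected.preconnected t1 u
  obtain ⟨w, hw, hwu⟩ := hgC1.exit p ht1C hgC1.hu
  have hgw : Good T r w (C1 \ {w}) := by
    refine ⟨fun h => hgC1.hr h.1, fun h => h.2 rfl, ?_⟩
    rintro t ⟨ht, htw⟩ t' hadj hne
    refine ⟨?_, hne⟩
    by_cases htu : t' = u
    · exfalso
      subst htu
      obtain ⟨p1, hp1⟩ := ht
      obtain ⟨p2, hp2⟩ := hw
      have hq : t' ∉ (p1.reverse.append p2).bypass.support := by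
        intro h
        have h1 := SimpleGraph.Walk.support_bypass_subset_support _ h
        rw [SimpleGraph.Walk.mem_support_append_iff, SimpleGraph.Walk.support_reverse,
          List.mem_reverse] at h1
        exact h1.elim hp1 hp2
      have hqp := (p1.reverse.append p2).bypass_isPath
      have hpath1 : (SimpleGraph.Walk.cons hadj.symm (p1.reverse.append p2).bypass).IsPath :=
        (SimpleGraph.Walk.cons_isPath_iff _ _).2 ⟨hqp, hq⟩
      have hpath2 : (SimpleGraph.Walk.cons hwu.symm SimpleGraph.Walk.nil).IsPath := by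
        rw [SimpleGraph.Walk.cons_isPath_iff]
        refine ⟨SimpleGraph.Walk.IsPath.nil, ?_⟩
        simpa using hwu.symm.ne
      have h2 := hT.isAcyclic.path_unique ⟨_, hpath1⟩ ⟨_, hpath2⟩
      have h3 := congrArg (fun q => q.1.length) h2
      simp only [SimpleGraph.Walk.length_cons, SimpleGraph.Walk.length_nil] at h3
      have h4 : (p1.reverse.append p2).bypass.length = 0 := by omega
      exact htw (SimpleGraph.Walk.eq_of_length_eq_zero h4)
    · exact hgC1.hcl t ht t' hadj htu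
  obtain ⟨x, hxw, hxu⟩ := hWW w u
  have hxC : τ x ∈ C1 \ {w} := by
    refine ⟨hWC1 x hxu _ (hτ x (hWA u hxu)), fun h => ?_⟩
    have h1 : τ x = w := h
    have h2 := hτ x (hWA u hxu)
    rw [h1] at h2
    exact hWB w x hxw h2
  have hPw : P (T.dist r w) := by
    refine ⟨w, C1 \ {w}, hgw, ?_, rfl⟩
    intro z hz
    exact side hgw (hWA w) hconn hcov (hWB w) hxw (hWc w x hxw z hz) hxC (hτ x (hWA u hxu))
  have h1 := hmax _ hPw
  have h2 := hgC1.depth hT hw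
  omega

end haven

section

variable {G : Type v} [Group G] {S : Set G} {X : Type u} [MulAction G X]

/-- balls with grids are not narrow -/
theorem grid_tw {c : ℝ} {n k : ℕ} {m : X} (hfin : {y | hop S n m y}.Finite) (h : grid S c n m)
    (hk : narrow (fun x y => ∃ s ∈ S, s • x = y) {y | hop S n m y} k) (hkc : 2 * (k : ℝ) + 1 ≤ c * n) :
    False := by
  classical
  obtain ⟨J, D, h1, h2, h3, h4, h5⟩ := h
  obtain ⟨V, T, B, hT, hB, hconn, hcov⟩ := hk
  have hk0 : (0 : ℝ) ≤ k := Nat.cast_nonneg _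
  have hJ : 2 * k + 1 ≤ J := by
    have : (2 * (k : ℝ) + 1) ≤ J := hkc.trans h1
    exact_mod_cast this
  have hcol : ∀ t, ∃ Q : Set X, (∀ a ∈ Q, hop S n m a ∧ a ∉ B t) ∧
      (∀ a ∈ Q, ∀ b ∈ Q, linked S 1 Q a b) ∧ ∀ i, (D i ∩ Q).Nonempty :=
    fun t => h5 k (B t) (by linarith) (hB t)
  choose Q q1 q2 q3 using hcol
  have hrow : ∀ t t', ∃ i, (∀ a ∈ D i, a ∉ B t) ∧ (∀ a ∈ D i, a ∉ B t') := by
    intro t t'
    by_contra hcon
    push Not at hcon
    have h6 : ∀ i, ∃ a ∈ D i, a ∈ B t ∪ B t' := by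
      intro i
      by_cases h : ∀ a ∈ D i, a ∉ B t
      · obtain ⟨a, ha, ha'⟩ := hcon i h
        exact ⟨a, ha, Or.inr ha'⟩
      · push Not at h
        obtain ⟨a, ha, ha'⟩ := h
        exact ⟨a, ha, Or.inl ha'⟩
    choose f hf hf' using h6
    have hinj : Function.Injective f := by
      intro i j hij
      by_contra hne
      exact Set.disjoint_left.1 (h2 i j hne) (hf i) (by rw [hij]; exact hf j)
    have h7 : (Set.range f).encard ≤ ((k + k : ℕ) : ℕ∞) := by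
      refine (Set.encard_le_encard (Set.range_subset_iff.2 hf')).trans
        ((Set.encard_union_le _ _).trans ?_)
      push_cast
      exact add_le_add (hB t) (hB t')
    rw [← Set.image_univ, hinj.encard_image, Set.encard_univ, ENat.card_eq_coe_natCard,
      Nat.card_eq_fintype_card, Fintype.card_fin] at h7
    have h8 : J ≤ k + k := by exact_mod_cast h7
    omega
  refine haven (Γ := sch S X) hfin hT hconn ?_
    (fun t => Q t ∪ {a | ∃ i, a ∈ D i ∧ ∀ a ∈ D i, a ∉ B t}) ?_ ?_ ?_ ?_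
  · rintro x hx y hy ⟨-, s, hs | hs, hxy⟩
    · exact hcov x hx y hy ⟨s, hs, hxy⟩
    · obtain ⟨t, h6, h7⟩ := hcov y hy x hx ⟨s⁻¹, hs, by rw [← hxy, inv_smul_smul]⟩
      exact ⟨t, h7, h6⟩
  · rintro t a (ha | ⟨i, ha, -⟩)
    · exact (q1 t a ha).1
    · exact h3 i a ha
  · intro t
    have hQ : ∀ a ∈ Q t, ∀ b ∈ Q t,
        cn (sch S X) (Q t ∪ {a | ∃ i, a ∈ D i ∧ ∀ a ∈ D i, a ∉ B t}) a b := fun a ha b hb =>
      cn_mono Set.subset_union_left (cn_linked (q2 t a ha b hb))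
    have hq : ∀ a ∈ Q t ∪ {a | ∃ i, a ∈ D i ∧ ∀ a ∈ D i, a ∉ B t}, ∃ b ∈ Q t,
        cn (sch S X) (Q t ∪ {a | ∃ i, a ∈ D i ∧ ∀ a ∈ D i, a ∉ B t}) a b := by
      rintro a (ha | ⟨i, ha, hi⟩)
      · exact ⟨a, ha, Relation.ReflTransGen.refl⟩
      · obtain ⟨b, hb1, hb2⟩ := q3 t i
        refine ⟨b, hb2, cn_mono ?_ (cn_linked (h4 i a ha b hb1))⟩
        intro z hz
        exact Or.inr ⟨i, hz, hi⟩
    intro a ha b hb
    obtain ⟨a', ha', haa⟩ := hq a ha
    obtain ⟨b', hb', hbb⟩ := hq b hb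
    exact haa.trans ((hQ a' ha' b' hb').trans (cn_symm hbb))
  · rintro t a (ha | ⟨i, ha, hi⟩)
    · exact (q1 t a ha).2
    · exact hi a ha
  · intro t t'
    obtain ⟨i, hi, hi'⟩ := hrow t t'
    obtain ⟨a, ha, -⟩ := q3 t i
    exact ⟨a, Or.inr ⟨i, ha, hi⟩, Or.inr ⟨i, ha, hi'⟩⟩

theorem narrow_mono {r r' : X → X → Prop} {A A' : Set X} {k : ℕ} (hA : A' ⊆ A)
    (hr : ∀ x y, r' x y → r x y) (h : narrow r A k) : narrow r' A' k := by
  obtain ⟨V, T, B, h1, h2, h3, h4⟩ := h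
  exact ⟨V, T, B, h1, h2, fun x hx => h3 x (hA hx), fun x hx y hy hxy =>
    h4 x (hA hx) y (hA hy) (hr x y hxy)⟩

end

/-- local treewidth, uniform form -/
theorem tw_uniform (G : Type v) [Group G] [Group.IsFinitelyPresented G] (hG : IsMulTorsion G)
    (S : Set G) (hS : Subgroup.closure S = ⊤) :
    ∃ c : ℝ, 0 < c ∧ ∀ n k : ℕ, (k : ℝ) ≤ c * n → ∃ N : Subgroup G, N.Normal ∧ N.FiniteIndex ∧
      ∀ (X : Type u) [MulAction G X],
        (∀ m : X, narrow (fun x y => ∃ s ∈ S, s • x = y) {y | hop S n m y} k) →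
        ∀ g ∈ N, ∀ x : X, g • x = x := by
  obtain ⟨M0, σ, hσS, hσ, -⟩ := exists_tuple G S hS
  obtain ⟨c, hc, h⟩ := grid_uniform.{u, v} G hG (Set.range σ) (Set.finite_range σ) hσ
  refine ⟨c / 3, by positivity, fun n k hk => ?_⟩
  obtain ⟨N, h1, h2, h3⟩ := h n
  refine ⟨N, h1, h2, ?_⟩
  intro X _ hX g hg x
  refine h3 X ?_ g hg x
  intro m hm
  have hd : (Set.range σ ∪ {s | s⁻¹ ∈ Set.range σ}).Finite := by
    refine (Set.finite_range σ).union ?_
    have : {s | s⁻¹ ∈ Set.range σ} = (fun s : G => s⁻¹) '' Set.range σ := by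
      ext s
      constructor
      · intro h; exact ⟨s⁻¹, h, inv_inv s⟩
      · rintro ⟨t, ht, rfl⟩; show (t⁻¹)⁻¹ ∈ Set.range σ; rw [inv_inv]; exact ht
    rw [this]
    exact (Set.finite_range σ).image _
  have hd' : (Set.range σ ∪ {s | s⁻¹ ∈ Set.range σ}).encard ≤
      (Set.range σ ∪ {s | s⁻¹ ∈ Set.range σ}).ncard := by rw [hd.cast_ncard_eq]
  have hnar := narrow_mono (r' := fun x y => ∃ s ∈ Set.range σ, s • x = y)
    (A' := {y | hop (Set.range σ) n m y}) (fun y hy => hop_mono hσS hy)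
    (fun x y ⟨s, hs, hxy⟩ => ⟨s, hσS hs, hxy⟩) (hX m)
  have hk1 : 1 ≤ k := by
    obtain ⟨V, T, B, -, h5, h6, -⟩ := hnar
    obtain ⟨t⟩ := (h6 m ⟨[], by simp, by simp, by simp⟩).nonempty
    have h7 : (1 : ℕ∞) ≤ (B t.1).encard := Set.one_le_encard_iff_nonempty.2 ⟨m, t.2⟩
    exact_mod_cast h7.trans (h5 t.1)
  have hk2 : (1 : ℝ) ≤ k := by exact_mod_cast hk1
  refine grid_tw (Set.finite_of_encard_le_coe (ball_card hd' m n)) hm hnar ?_
  have h8 : 3 * (k : ℝ) ≤ c * n := by linarith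
  linarith

end Vale.Agent.P192.R2.H577
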