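import Vale.Agent.P192.R2.H577.Gro
import Vale.Agent.P192.H437.Wob

set_option linter.all false

namespace Vale.Agent.P192.R2.H577

open SimpleGraph Vale.Agent.P192 Vale.Agent.P192.H437 Filter

universe u v w

/-- wobbling groups, growth, uniform form -/
theorem wob_growth (G : Type v) [Group G] [Group.IsFinitelyPresented G] (hG : IsMulTorsion G)
    (S : Set G) (hS : Subgroup.closure S = ⊤) (c0 : ℕ) :
    ∃ ε : ℝ, 0 < ε ∧ ∀ n b : ℕ, (b : ℝ) < ε * (n : ℝ) ^ 2 →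
      ∃ N : Subgroup G, N.Normal ∧ N.FiniteIndex ∧
      ∀ (X : Type u) (Γ : SimpleGraph X), (∀ x : X, {y | Γ.edist x y ≤ n}.encard ≤ b) →
        ∀ ρ : G →* Equiv.Perm X, (∀ s ∈ S, ∀ x : X, Γ.edist x (ρ s x) ≤ c0) →
          ∀ g ∈ N, ρ g = 1 := by
  obtain ⟨c, hc, h⟩ := growth_uniform.{u, v} G hG S hS
  have hq : (0 : ℝ) < 4 * ((c0 : ℝ) + 1) ^ 2 := by positivity
  refine ⟨min c 1 / (4 * ((c0 : ℝ) + 1) ^ 2), by positivity, fun n b hb => ?_⟩
  by_cases hn : n < c0 + 1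
  · refine ⟨⊤, inferInstance, inferInstance, ?_⟩
    intro X Γ hX ρ hρ g _
    ext x
    exfalso
    have h1 : (n : ℝ) < c0 + 1 := by exact_mod_cast hn
    have h2 : (n : ℝ) ^ 2 ≤ ((c0 : ℝ) + 1) ^ 2 := by
      have : (0 : ℝ) ≤ n := Nat.cast_nonneg _
      nlinarith
    have h3 : min c 1 / (4 * ((c0 : ℝ) + 1) ^ 2) * (n : ℝ) ^ 2 ≤ 1 / 4 := by
      rw [div_mul_eq_mul_div, div_le_iff₀ hq]
      have h4 : min c 1 ≤ 1 := min_le_right _ _
      have h5 : (0 : ℝ) ≤ (n : ℝ) ^ 2 := by positivity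
      nlinarith
    have h4 : (b : ℝ) < 1 := by linarith
    have h5 : b = 0 := by
      have : b < 1 := by exact_mod_cast h4
      omega
    have h6 := hX x
    rw [h5] at h6
    have h7 : (1 : ℕ∞) ≤ {y | Γ.edist x y ≤ n}.encard :=
      Set.one_le_encard_iff_nonempty.2 ⟨x, by simp⟩
    have h8 := h7.trans h6
    simp at h8
  · push Not at hn
    have h1 : (c0 + 1) * (n / (c0 + 1)) ≤ n := Nat.mul_div_le _ _
    have h2 : n < (c0 + 1) * (n / (c0 + 1) + 1) := Nat.lt_mul_div_succ _ (by omega)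
    have h3 : 1 ≤ n / (c0 + 1) := (Nat.one_le_div_iff (by omega)).2 hn
    set n' := n / (c0 + 1) with hn'
    obtain ⟨N, e1, e2, e3⟩ := h n' b (by
      refine hb.trans_le ?_
      have h4 : (n : ℝ) ≤ 2 * ((c0 + 1) * n') := by
        have : n ≤ 2 * ((c0 + 1) * n') := by nlinarith
        exact_mod_cast this
      rw [div_mul_eq_mul_div, div_le_iff₀ hq]
      have h5 : min c 1 ≤ c := min_le_left _ _
      have h6 : (0 : ℝ) ≤ n := Nat.cast_nonneg _
      have h7 : (n : ℝ) ^ 2 ≤ (2 * ((c0 + 1) * n')) ^ 2 := pow_le_pow_left₀ h6 h4 2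
      calc min c 1 * (n : ℝ) ^ 2 ≤ c * (2 * ((c0 + 1) * n')) ^ 2 :=
            mul_le_mul h5 h7 (by positivity) hc.le
        _ = c * (n' : ℝ) ^ 2 * (4 * ((c0 : ℝ) + 1) ^ 2) := by ring)
    refine ⟨N, e1, e2, ?_⟩
    intro X Γ hX ρ hρ g hg
    letI : MulAction G X := MulAction.compHom X ρ
    have hsm : ∀ (g : G) (y : X), g • y = ρ g y := fun _ _ => rfl
    ext x
    refine e3 X ?_ g hg x
    intro y
    refine (Set.encard_le_encard ?_).trans (hX y)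
    intro z hz
    have h4 := edist_hop Γ S c0 hρ hz
    refine h4.trans ?_
    have h5 : c0 * n' ≤ n := by nlinarith
    exact_mod_cast h5

/-- wobbling groups, growth -/
theorem wob_growth_image (G : Type v) [Group G] [Group.IsFinitelyPresented G] (hG : IsMulTorsion G)
    (X : Type u) (Γ : SimpleGraph X) (b : ℕ → ℕ)
    (hb : ∀ (x : X) (n : ℕ), {y | Γ.edist x y ≤ n}.encard ≤ b n)
    (ho : ∀ ε : ℝ, 0 < ε → ∃ᶠ n : ℕ in atTop, (b n : ℝ) ≤ ε * (n : ℝ) ^ 2)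
    (ρ : G →* Equiv.Perm X) (hρ : ∀ g : G, ∃ c : ℕ, ∀ x : X, Γ.edist x (ρ g x) ≤ c) :
    Finite ρ.range := by
  obtain ⟨S, hSf, hS⟩ := H630.exists_gens G
  choose c hc using hρ
  obtain ⟨c0, hc0⟩ := H630.exists_bound hSf c
  obtain ⟨ε, hε, h⟩ := wob_growth.{u, v} G hG S hS c0
  obtain ⟨n, h1, h2⟩ := ((ho (ε / 2) (by positivity)).and_eventually (eventually_ge_atTop 1)).exists
  have h3 : (1 : ℝ) ≤ n := by exact_mod_cast h2
  have h4 : (0 : ℝ) < (n : ℝ) ^ 2 := by positivity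
  obtain ⟨N, e1, e2, e3⟩ := h n (b n) (by nlinarith [mul_pos hε h4])
  refine range_finite_of_kernel ρ N e2 fun g hg => e3 X Γ (fun x => hb x n) ρ ?_ g hg
  intro s hs x
  refine (hc s x).trans ?_
  exact_mod_cast hc0 s hs

theorem walk_induce {X : Type u} {Γ : SimpleGraph X} {A : Set X} {x y : X} (p : Γ.Walk x y)
    (hp : ∀ z ∈ p.support, z ∈ A) :
    ∃ q : (Γ.induce A).Walk ⟨x, hp x p.start_mem_support⟩ ⟨y, hp y p.end_mem_support⟩,
      q.length = p.length := by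
  induction p with
  | nil => exact ⟨Walk.nil, rfl⟩
  | @cons a b c h q ih =>
    obtain ⟨q', hq'⟩ := ih fun z hz => hp z (by
      rw [Walk.support_cons]; exact List.mem_cons_of_mem _ hz)
    have hadj : (Γ.induce A).Adj ⟨a, hp a (Walk.start_mem_support _)⟩
        ⟨b, hp b (by rw [Walk.support_cons]; exact List.mem_cons_of_mem _ q.start_mem_support)⟩ :=
      SimpleGraph.comap_adj.2 h
    refine ⟨Walk.cons hadj q', ?_⟩
    rw [Walk.length_cons, Walk.length_cons, hq']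

theorem near_support {X : Type u} {Γ : SimpleGraph X} {x y : X} (p : Γ.Walk x y) {z : X}
    (hz : z ∈ p.support) : Γ.edist x z ≤ p.length := by
  classical
  refine (SimpleGraph.edist_le (p.takeUntil z hz)).trans ?_
  exact_mod_cast p.length_takeUntil_le hz

theorem narrow_thick {G : Type v} [Group G] {X : Type u} [MulAction G X] (Γ : SimpleGraph X)
    (Δ c0 k n' n : ℕ) (hΔ : ∀ x, (Γ.neighborSet x).encard ≤ Δ) (S : Set G)
    (hS : ∀ s ∈ S, ∀ x : X, Γ.edist x (s • x) ≤ c0) (hn : c0 * n' + c0 ≤ n) (m : X)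
    (h : narrow Γ.Adj {y | Γ.edist m y ≤ n} k) :
    narrow (fun x y => ∃ s ∈ S, s • x = y) {y | hop S n' m y} (k * (Δ + 1) ^ c0) := by
  classical
  obtain ⟨V, T, B, hT, hB, hconn, hcov⟩ := h
  set A : Set X := {y | Γ.edist m y ≤ n} with hA
  have hbA : ∀ y, hop S n' m y → Γ.edist m y ≤ ((c0 * n' : ℕ) : ℕ∞) :=
    fun y hy => edist_hop Γ S c0 hS hy
  have hbA' : ∀ y, hop S n' m y → y ∈ A := by
    intro y hy
    refine (hbA y hy).trans ?_
    exact_mod_cast (Nat.le_add_right _ _).trans hn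
  let B' : V → Set A := fun t => {a | a.1 ∈ B t}
  have hconn' : ∀ a : A, (T.induce {t | a ∈ B' t}).Connected := fun a => hconn a.1 a.2
  have hcov' : ∀ a b : A, (Γ.induce A).Adj a b → ∃ t, a ∈ B' t ∧ b ∈ B' t :=
    fun a b hab => hcov a.1 a.2 b.1 b.2 hab
  have hΔ' : ∀ a : A, ((Γ.induce A).neighborSet a).encard ≤ Δ := by
    intro a
    rw [← Subtype.val_injective.encard_image]
    refine (Set.encard_le_encard ?_).trans (hΔ a.1)
    rintro _ ⟨b, hb, rfl⟩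
    exact hb
  refine ⟨V, T, fun t => Subtype.val '' {b : A | ∃ u ∈ B' t, b ∈ H630.near (Γ.induce A) c0 u}, hT,
    ?_, ?_, ?_⟩
  · intro t
    rw [Subtype.val_injective.encard_image]
    have h4 : (⋃ u ∈ B' t, H630.near (Γ.induce A) c0 u).encard ≤ ((k * (Δ + 1) ^ c0 : ℕ) : ℕ∞) := by
      refine H630.biUnion_le _ _ _ _ ?_ fun u _ => H630.near_card (Γ.induce A) Δ hΔ' c0 u
      rw [← Subtype.val_injective.encard_image]
      refine (Set.encard_le_encard ?_).trans (hB t)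
      rintro _ ⟨b, hb, rfl⟩
      exact hb
    refine le_trans (Set.encard_le_encard ?_) h4
    rintro b ⟨u, hu, hb⟩
    exact Set.mem_biUnion hu hb
  · intro y hy
    have hyA := hbA' y hy
    have hset : {t | y ∈ Subtype.val '' {b : A | ∃ u ∈ B' t, b ∈ H630.near (Γ.induce A) c0 u}} =
        {t | ∃ u ∈ B' t, (⟨y, hyA⟩ : A) ∈ H630.near (Γ.induce A) c0 u} := by
      ext t
      constructor
      · rintro ⟨b, ⟨u, hu, hb⟩, hby⟩
        have : b = ⟨y, hyA⟩ := Subtype.ext hby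
        exact ⟨u, hu, by rw [← this]; exact hb⟩
      · rintro ⟨u, hu, hb⟩
        exact ⟨⟨y, hyA⟩, ⟨u, hu, hb⟩, rfl⟩
    rw [hset]
    obtain ⟨t0, ht0⟩ := (hconn' ⟨y, hyA⟩).nonempty
    have h6 : ∀ a : {t | ∃ u ∈ B' t, (⟨y, hyA⟩ : A) ∈ H630.near (Γ.induce A) c0 u},
        (T.induce {t | ∃ u ∈ B' t, (⟨y, hyA⟩ : A) ∈ H630.near (Γ.induce A) c0 u}).Reachable a
          ⟨t0, _, ht0, H630.near_self (Γ.induce A) c0 ⟨y, hyA⟩⟩ := by
      rintro ⟨t, u, hu, p, hp⟩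
      exact H630.reach_walk hconn' hcov' c0 ht0 p hp t hu
    exact (SimpleGraph.connected_iff _).2 ⟨fun a b => (h6 a).trans (h6 b).symm,
      ⟨⟨t0, _, ht0, H630.near_self (Γ.induce A) c0 ⟨y, hyA⟩⟩⟩⟩
  · rintro x hx y hy ⟨s, hs, rfl⟩
    have hxA := hbA' x hx
    obtain ⟨t, ht⟩ := (hconn' ⟨x, hxA⟩).nonempty
    obtain ⟨p, hp⟩ := H630.walk_of_edist (hS s hs x)
    have hsup : ∀ z ∈ p.support, z ∈ A := by
      intro z hz
      show Γ.edist m z ≤ n
      have h1 : Γ.edist x z ≤ (c0 : ℕ∞) := (near_support p hz).trans (by exact_mod_cast hp)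
      refine (Γ.edist_triangle (v := x)).trans ((add_le_add (hbA x hx) h1).trans ?_)
      exact_mod_cast hn
    obtain ⟨q, hq⟩ := walk_induce p hsup
    refine ⟨t, ⟨⟨x, hxA⟩, ⟨⟨x, hxA⟩, ht, H630.near_self _ _ _⟩, rfl⟩,
      ⟨⟨s • x, hsup _ p.end_mem_support⟩, ⟨⟨x, hxA⟩, ht, q, by rw [hq]; exact hp⟩, rfl⟩⟩

/-- wobbling groups, local treewidth, uniform form -/
theorem wob_tw (G : Type v) [Group G] [Group.IsFinitelyPresented G] (hG : IsMulTorsion G)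
    (S : Set G) (hS : Subgroup.closure S = ⊤) (Δ c0 : ℕ) :
    ∃ ε : ℝ, 0 < ε ∧ ∀ n k : ℕ, (k : ℝ) ≤ ε * n →
      ∃ N : Subgroup G, N.Normal ∧ N.FiniteIndex ∧
      ∀ (X : Type u) (Γ : SimpleGraph X), (∀ x : X, (Γ.neighborSet x).encard ≤ Δ) →
        (∀ x : X, narrow Γ.Adj {y | Γ.edist x y ≤ n} k) →
        ∀ ρ : G →* Equiv.Perm X, (∀ s ∈ S, ∀ x : X, Γ.edist x (ρ s x) ≤ c0) →
          ∀ g ∈ N, ρ g = 1 := by
  obtain ⟨c, hc, h⟩ := tw_uniform.{u, v} G hG S hS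
  set M := (Δ + 1) ^ c0 with hM
  have hM1 : 1 ≤ M := Nat.one_le_pow _ _ (Nat.succ_pos Δ)
  have hM2 : (1 : ℝ) ≤ M := by exact_mod_cast hM1
  have hq : (0 : ℝ) < 3 * ((c0 : ℝ) + 1) * M := by positivity
  refine ⟨min c 1 / (3 * ((c0 : ℝ) + 1) * M), by positivity, fun n k hk => ?_⟩
  rw [div_mul_eq_mul_div, le_div_iff₀ hq] at hk
  by_cases hn : n < 2 * (c0 + 1)
  · refine ⟨⊤, inferInstance, inferInstance, ?_⟩
    intro X Γ _ hX ρ hρ g _
    ext x
    exfalso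
    have h1 : (n : ℝ) < 2 * (c0 + 1) := by exact_mod_cast hn
    have h4 : min c 1 ≤ 1 := min_le_right _ _
    have h5 : (0 : ℝ) ≤ (n : ℝ) := Nat.cast_nonneg _
    have h6 : (0 : ℝ) ≤ (k : ℝ) := Nat.cast_nonneg _
    have h7 : (k : ℝ) * (3 * (c0 + 1)) ≤ n := by
      have h8 : (k : ℝ) * (3 * (c0 + 1)) * 1 ≤ k * (3 * (c0 + 1)) * M :=
        mul_le_mul_of_nonneg_left hM2 (by positivity)
      nlinarith
    have h8 : k = 0 := by
      by_contra hk0
      have h9 : (1 : ℝ) ≤ k := by exact_mod_cast Nat.one_le_iff_ne_zero.2 hk0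
      have h10 : (0 : ℝ) ≤ c0 := Nat.cast_nonneg _
      nlinarith
    obtain ⟨V, T, B, -, hB, hconn, -⟩ := hX x
    obtain ⟨t⟩ := (hconn x (by simp)).nonempty
    have h9 : (1 : ℕ∞) ≤ (B t.1).encard := Set.one_le_encard_iff_nonempty.2 ⟨x, t.2⟩
    have h10 := h9.trans (hB t.1)
    rw [h8] at h10
    simp at h10
  · push Not at hn
    have h1 : (c0 + 1) * (n / (c0 + 1)) ≤ n := Nat.mul_div_le _ _
    have h2 : n < (c0 + 1) * (n / (c0 + 1) + 1) := Nat.lt_mul_div_succ _ (by omega)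
    have h3 : 2 ≤ n / (c0 + 1) := by
      rw [Nat.le_div_iff_mul_le (by omega)]
      exact hn
    obtain ⟨n', hn'⟩ : ∃ n', n / (c0 + 1) = n' + 1 := ⟨n / (c0 + 1) - 1, by omega⟩
    rw [hn'] at h1 h2 h3
    obtain ⟨N, e1, e2, e3⟩ := h n' (k * M) (by
      have h4 : (n : ℝ) ≤ 3 * ((c0 + 1) * n') := by
        have : n ≤ 3 * ((c0 + 1) * n') := by nlinarith
        exact_mod_cast this
      have h5 : min c 1 ≤ c := min_le_left _ _
      have h6 : (0 : ℝ) ≤ n := Nat.cast_nonneg _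
      have h7 : (k : ℝ) * (3 * (c0 + 1) * M) ≤ c * (3 * ((c0 + 1) * n')) :=
        hk.trans (mul_le_mul h5 h4 h6 hc.le)
      have h8 : (0 : ℝ) < 3 * (c0 + 1) := by positivity
      have h9 : (3 * ((c0 : ℝ) + 1)) * (k * M) ≤ (3 * (c0 + 1)) * (c * n') := by linarith
      push_cast
      exact le_of_mul_le_mul_left h9 h8)
    refine ⟨N, e1, e2, ?_⟩
    intro X Γ hΔ hX ρ hρ g hg
    letI : MulAction G X := MulAction.compHom X ρ
    have hsm : ∀ (g : G) (y : X), g • y = ρ g y := fun _ _ => rfl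
    ext x
    refine e3 X ?_ g hg x
    intro m
    exact narrow_thick Γ Δ c0 k n' n hΔ S hρ (by nlinarith) m (hX m)

/-- wobbling groups, local treewidth -/
theorem wob_tw_image (G : Type v) [Group G] [Group.IsFinitelyPresented G] (hG : IsMulTorsion G)
    (X : Type u) (Γ : SimpleGraph X) (Δ : ℕ) (hΔ : ∀ x : X, (Γ.neighborSet x).encard ≤ Δ)
    (b : ℕ → ℕ) (hb : ∀ (x : X) (n : ℕ), narrow Γ.Adj {y | Γ.edist x y ≤ n} (b n))
    (ho : ∀ ε : ℝ, 0 < ε → ∃ᶠ n : ℕ in atTop, (b n : ℝ) ≤ ε * n)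
    (ρ : G →* Equiv.Perm X) (hρ : ∀ g : G, ∃ c : ℕ, ∀ x : X, Γ.edist x (ρ g x) ≤ c) :
    Finite ρ.range := by
  obtain ⟨S, hSf, hS⟩ := H630.exists_gens G
  choose c hc using hρ
  obtain ⟨c0, hc0⟩ := H630.exists_bound hSf c
  obtain ⟨ε, hε, h⟩ := wob_tw.{u, v} G hG S hS Δ c0
  obtain ⟨n, h1⟩ := (ho ε hε).exists
  obtain ⟨N, e1, e2, e3⟩ := h n (b n) h1
  refine range_finite_of_kernel ρ N e2 fun g hg => e3 X Γ hΔ (fun x => hb x n) ρ ?_ g hg
  intro s hs x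
  refine (hc s x).trans ?_
  exact_mod_cast hc0 s hs

/-- permutations which are given piecewise by a group action with small Schreier balls -/
theorem full_image (G : Type v) [Group G] [Group.IsFinitelyPresented G] (hG : IsMulTorsion G)
    (F : Type w) [Group F] (A : Set F) (hA : Subgroup.closure A = ⊤) (Y : Type u) [MulAction F Y]
    (b : ℕ → ℕ) (hb : ∀ (y : Y) (n : ℕ), {z | hop A n y z}.encard ≤ b n)
    (ho : ∀ ε : ℝ, 0 < ε → ∃ᶠ n : ℕ in atTop, (b n : ℝ) ≤ ε * (n : ℝ) ^ 2)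
    (ρ : G →* Equiv.Perm Y)
    (hρ : ∀ g : G, ∃ E : Set F, E.Finite ∧ ∀ y : Y, ∃ f ∈ E, ρ g y = f • y) :
    Finite ρ.range := by
  refine wob_growth_image G hG Y (sch A Y) b ?_ ho ρ ?_
  · intro x n
    refine (Set.encard_le_encard ?_).trans (hb x n)
    intro y hy
    obtain ⟨p, hp⟩ := H630.walk_of_edist hy
    exact hop_le hp (hop_of_walk p)
  · intro g
    obtain ⟨E, hE, hE'⟩ := hρ g
    choose L hL1 hL2 using exists_list A hA
    obtain ⟨c, hc⟩ := H630.exists_bound hE (fun f => (L f).length)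
    refine ⟨c, fun x => ?_⟩
    obtain ⟨f, hf, hx⟩ := hE' x
    obtain ⟨p, hp⟩ := walk_of_hop (S := A) (n := c) (x := x) (y := ρ g x)
      ⟨L f, hL1 f, hc f hf, by rw [hL2, hx]⟩
    exact (SimpleGraph.edist_le p).trans (by exact_mod_cast hp)

end Vale.Agent.P192.R2.H577
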